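import Mathlib

/-! P267 / H509: pointwise algebra of the Riemann-Roch density (package RRC-CW, part W1). -/

namespace Vale.Agent.P267.H509

open Finset

noncomputable section

/-- `x ∧ y` for two covectors -/
def w2 (x y : Fin 2 → ℂ) : ℂ := x 0 * y 1 - x 1 * y 0

theorem w2_swap (x y : Fin 2 → ℂ) : w2 y x = -w2 x y := by simp only [w2]; ring

variable {r : ℕ}

/-- `(1,0)`-covectors with values in the `r × r` matrices -/
abbrev MCov (r : ℕ) : Type := Fin 2 → Matrix (Fin r) (Fin r) ℂ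

/-- `tr (x ∧ y)` -/
def tw (x y : MCov r) : ℂ := (x 0 * y 1 - x 1 * y 0).trace

/-- `tr x` -/
def tc (x : MCov r) : Fin 2 → ℂ := fun i => (x i).trace

theorem tw_swap (x y : MCov r) : tw y x = -tw x y := by
  simp only [tw, Matrix.trace_sub, Matrix.trace_mul_comm (y 0) (x 1),
    Matrix.trace_mul_comm (y 1) (x 0)]
  ring

theorem tw_sub_left (x x' y : MCov r) : tw (x - x') y = tw x y - tw x' y := by
  simp only [tw, Pi.sub_apply, sub_mul, Matrix.trace_sub]
  ring

theorem tw_sub_right (x y y' : MCov r) : tw x (y - y') = tw x y - tw x y' := by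
  simp only [tw, Pi.sub_apply, mul_sub, Matrix.trace_sub]
  ring

theorem tc_sub (x y : MCov r) : tc (x - y) = tc x - tc y := by
  funext i; simp [tc]

/-- An alternating function of two arguments. -/
structure Alt2 (A : Type*) [AddCommGroup A] (T : A → A → ℂ) : Prop where
  subl : ∀ x x' y, T (x - x') y = T x y - T x' y
  swap : ∀ x y, T y x = -T x y

namespace Alt2

variable {A : Type*} [AddCommGroup A] {T : A → A → ℂ}

theorem subr (h : Alt2 A T) (x y y' : A) : T x (y - y') = T x y - T x y' := by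
  rw [h.swap (y - y') x, h.subl, h.swap y x, h.swap y' x]; ring

theorem self (h : Alt2 A T) (x : A) : T x x = 0 := by
  have := h.swap x x
  linear_combination (1 / 2 : ℂ) * this

theorem cocycle (h : Alt2 A T) (x y z : A) : T (y - x) (z - y) = T y z - T x z + T x y := by
  rw [h.subl, h.subr, h.subr, h.self]
  ring

end Alt2

/-- The sum over the partition of unity. `l i` stands for `∂̄ρ_i`. -/
theorem sum_cocycle {ι A : Type*} [Fintype ι] [AddCommGroup A] {T : A → A → ℂ} (hT : Alt2 A T)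
    (a : ι → A) (ρ : ι → ℂ) (l : ι → Fin 2 → ℂ) (hρ : ∑ i, ρ i = 1) (hl : ∀ j, ∑ i, l i j = 0) :
    ∑ i, ∑ j, ∑ k, ρ i * w2 (l j) (l k) * T (a j - a i) (a k - a j) =
      ∑ j, ∑ k, w2 (l j) (l k) * T (a j) (a k) := by
  have h1 : ∀ i j k, ρ i * w2 (l j) (l k) * T (a j - a i) (a k - a j) =
      ρ i * (w2 (l j) (l k) * T (a j) (a k)) - ρ i * T (a i) (a k) * w2 (l j) (l k) +
        ρ i * T (a i) (a j) * w2 (l j) (l k) := by
    intro i j k
    rw [hT.cocycle]
    ring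
  have hw1 : ∀ k, ∑ j, w2 (l j) (l k) = 0 := by
    intro k
    simp only [w2, Finset.sum_sub_distrib, ← Finset.sum_mul, hl]
    ring
  have hw2 : ∀ j, ∑ k, w2 (l j) (l k) = 0 := by
    intro j
    simp only [w2, Finset.sum_sub_distrib, ← Finset.mul_sum, hl]
    ring
  simp only [h1, Finset.sum_add_distrib, Finset.sum_sub_distrib]
  have h2 : ∑ i, ∑ j, ∑ k, ρ i * T (a i) (a k) * w2 (l j) (l k) = 0 := by
    refine Finset.sum_eq_zero fun i _ => ?_
    rw [Finset.sum_comm]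
    refine Finset.sum_eq_zero fun k _ => ?_
    rw [← Finset.mul_sum, hw1, mul_zero]
  have h3 : ∑ i, ∑ j, ∑ k, ρ i * T (a i) (a j) * w2 (l j) (l k) = 0 := by
    refine Finset.sum_eq_zero fun i _ => Finset.sum_eq_zero fun j _ => ?_
    rw [← Finset.mul_sum, hw2, mul_zero]
  rw [h2, h3, sub_zero, add_zero]
  simp only [← Finset.mul_sum]
  rw [← Finset.sum_mul, hρ, one_mul]

theorem alt_tw : Alt2 (MCov r) tw := ⟨tw_sub_left, tw_swap⟩

theorem alt_w2 : Alt2 (Fin 2 → ℂ) w2 :=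
  ⟨fun x x' y => by simp only [w2, Pi.sub_apply]; ring, w2_swap⟩

/-- `tr x ∧ tr y` -/
theorem alt_tc : Alt2 (MCov r) fun x y => w2 (tc x) (tc y) :=
  ⟨fun x x' y => by rw [tc_sub, alt_w2.subl], fun x y => w2_swap _ _⟩

/-- `tr (x ∧ y)` in terms of the curvature matrix `g i j = -∑ (a i) ∂̄_j ρ`: the coefficient of
`dz₀∧dz₁∧dz̄₀∧dz̄₁` in `Θ ∧ Θ'`. -/
def wed (g h : Fin 2 → Fin 2 → ℂ) : ℂ :=
  -(g 0 0 * h 1 1 + g 1 1 * h 0 0 - g 0 1 * h 1 0 - g 1 0 * h 0 1)

/-- the `(1,1)`-form `∑ ∂̄ρ_b ∧ a_b`, coefficients of `dz_i∧dz̄_j` -/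
def thet {ι : Type*} [Fintype ι] (a : ι → Fin 2 → ℂ) (l : ι → Fin 2 → ℂ) (i j : Fin 2) : ℂ :=
  -∑ b, a b i * l b j

theorem sum_w2 {ι : Type*} [Fintype ι] (a a' : ι → Fin 2 → ℂ) (l : ι → Fin 2 → ℂ) :
    ∑ j, ∑ k, w2 (l j) (l k) * (w2 (a j) (a' k) + w2 (a' j) (a k)) =
      -2 * wed (thet a l) (thet a' l) := by
  have e : ∀ (p q : Fin 2) (x y : ι → Fin 2 → ℂ), (∑ b, x b p * l b q) * (∑ b, y b (1 - p) * l b (1 - q)) =
      ∑ j, ∑ k, x j p * l j q * (y k (1 - p) * l k (1 - q)) := by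
    intro p q x y
    rw [Finset.sum_mul_sum]
  have e00 := e 0 0 a a'
  have e11 := e 1 1 a a'
  have e01 := e 0 1 a a'
  have e10 := e 1 0 a a'
  simp only [sub_zero, sub_self] at e00 e11 e01 e10
  simp only [wed, thet, neg_mul_neg]
  rw [e00, e11, e01, e10]
  have hs : ∀ f : ι → ι → ℂ, ∑ j, ∑ k, f j k = ∑ j, ∑ k, (f j k + f k j) / 2 := by
    intro f
    simp only [add_div, Finset.sum_add_distrib]
    rw [Finset.sum_comm (f := fun j k => f k j / 2)]
    simp only [← Finset.sum_div]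
    ring
  simp only [← Finset.sum_add_distrib, ← Finset.sum_sub_distrib, Finset.mul_sum]
  rw [hs (fun j k => w2 (l j) (l k) * (w2 (a j) (a' k) + w2 (a' j) (a k)))]
  conv_rhs => rw [hs]
  refine Finset.sum_congr rfl fun j _ => Finset.sum_congr rfl fun k _ => ?_
  simp only [w2]
  ring

/-- the connection forms may be shifted by a common form -/
theorem sum_shift {ι : Type*} [Fintype ι] (a a' : ι → Fin 2 → ℂ) (p p' : Fin 2 → ℂ)
    (l : ι → Fin 2 → ℂ) (hl : ∀ j, ∑ i, l i j = 0) :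
    ∑ j, ∑ k, w2 (l j) (l k) * (w2 (a j - p) (a' k - p') + w2 (a' j - p') (a k - p)) =
      -2 * wed (thet a l) (thet a' l) := by
  have h := sum_w2 (fun j => a j - p) (fun j => a' j - p') l
  have h1 : ∀ (b : ι → Fin 2 → ℂ) (q : Fin 2 → ℂ), thet (fun j => b j - q) l = thet b l := by
    intro b q
    funext i j
    simp only [thet, Pi.sub_apply, sub_mul, Finset.sum_sub_distrib, ← Finset.mul_sum, hl]
    ring
  rw [h1, h1] at h
  exact h

/-! ### the Todd density -/

/-- the density of the Riemann-Roch theorem for a bundle of rank `r`: `α`, `α'` are the Atiyah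
cocycles of the tangent bundle, `ε`, `ε'` those of the bundle. -/
def Rd (r : ℕ) (α α' : MCov 2) (ε ε' : MCov r) : ℂ :=
  r * (1 / 8 * w2 (tc α) (tc α') - 1 / 24 * tw α α') +
    1 / 4 * (w2 (tc α) (tc ε') + w2 (tc ε) (tc α')) + 1 / 2 * tw ε ε'

theorem tc_zero : tc (0 : MCov r) = 0 := by funext i; simp [tc]

theorem tc_neg_transpose (α : MCov r) : tc (fun i => -(α i).transpose) = -tc α := by
  funext i; simp [tc]

theorem tw_neg_transpose (α α' : MCov r) :
    tw (fun i => -(α i).transpose) (fun i => -(α' i).transpose) = tw α α' := by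
  simp only [tw, neg_mul_neg, Matrix.trace_sub, ← Matrix.transpose_mul, Matrix.trace_transpose]
  rw [Matrix.trace_mul_comm (α' 1), Matrix.trace_mul_comm (α' 0)]

theorem tw_one (ε ε' : MCov 1) : tw ε ε' = w2 (tc ε) (tc ε') := by
  simp only [tw, w2, tc, Matrix.trace, Matrix.diag, Finset.univ_unique, Finset.sum_singleton,
    Matrix.sub_apply, Matrix.mul_apply]

/-- `dens(L) - dens(𝒪)` -/
theorem Rd_sub (α α' : MCov 2) (ε ε' : MCov 1) : Rd 1 α α' ε ε' - Rd 1 α α' 0 0 =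
    1 / 4 * (w2 (tc α) (tc ε') + w2 (tc ε) (tc α')) + 1 / 2 * w2 (tc ε) (tc ε') := by
  simp only [Rd, tw_one, tc_zero]
  simp only [w2, Pi.zero_apply]
  ring

/-- `10 dens(𝒪) + dens(Ω¹) = c₁(K)²` -/
theorem Rd_noether (α α' : MCov 2) :
    10 * Rd 1 α α' 0 0 + Rd 2 α α' (fun i => -(α i).transpose) (fun i => -(α' i).transpose) =
      w2 (tc α) (tc α') := by
  simp only [Rd, tc_zero, tc_neg_transpose, tw_neg_transpose, tw_one]
  simp only [w2, Pi.zero_apply, Pi.neg_apply]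
  push_cast
  ring

end

end Vale.Agent.P267.H509
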