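import Vale.Agent.P267.H509.CWFrame

/-! P267 / H509 (package RRC-CW, part W2): curvature of a line bundle from a frame, and the
`(1,0)`-forms. -/

set_option linter.unusedSectionVars false

open scoped Manifold ContDiff ComplexConjugate Matrix ComplexOrder
open Set Filter Topology

noncomputable section

namespace Vale.Agent.P267.H509

open Vale.Agent.P267.FL

variable {X : Type*} [TopologicalSpace X] [ChartedSpace C2 X] [IsManifold 𝓘(ℂ, C2) ω X]

/-! ### `(1,0)`-forms in charts -/

section ten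

variable {V : Type*} [NormedAddCommGroup V] [NormedSpace ℂ V]

theorem loc10_source {e : Ch X} {x : X} (hx : x ∈ e.source) (c : X → Fin 2 → V) (i : Fin 2) :
    loc10 e c (e x) i = ∑ p, jac e x p i • c x p := by
  rw [loc10, e.left_inv hx]

theorem loc10_chartAt (c : X → Fin 2 → V) (x : X) :
    loc10 (chartAt C2 x) c (chartAt C2 x x) = c x := by
  funext i
  rw [loc10_source (mem_chart_source C2 x), jac_chartAt]
  simp [Matrix.one_apply]

theorem loc10_change {e e' : Ch X} (he : e ∈ atlas C2 X) (he' : e' ∈ atlas C2 X) {x : X}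
    (hx : x ∈ e.source) (hx' : x ∈ e'.source) (c : X → Fin 2 → V) (i : Fin 2) :
    loc10 e c (e x) i = ∑ p, jacM e e' x p i • loc10 e' c (e' x) p := by
  rw [loc10_source hx, jac_eq he he' hx hx']
  simp only [loc10_source hx', Matrix.mul_apply, Fin.sum_univ_two]
  module

theorem loc10_contDiffAt_change {n : WithTop ℕ∞} {e e' : Ch X} (he : e ∈ atlas C2 X)
    (he' : e' ∈ atlas C2 X) {x : X} (hx : x ∈ e.source) (hx' : x ∈ e'.source) {c : X → Fin 2 → V}
    (h : ContDiffAt ℝ n (loc10 e' c) (e' x)) : ContDiffAt ℝ n (loc10 e c) (e x) := by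
  rw [contDiffAt_pi]
  intro i
  have h1 : (fun z => loc10 e c z i) =ᶠ[𝓝 (e x)] fun z =>
      ∑ p, jacM e e' (e.symm z) p i • loc10 e' c (e' (e.symm z)) p := by
    filter_upwards [(isOpen_trans e e').mem_nhds (mem_trans hx hx')] with z hz
    have := loc10_change he he' (e.map_target hz.1) hz.2 c i
    rwa [e.right_inv hz.1] at this
  refine ContDiffAt.congr_of_eventuallyEq ?_ h1
  have h3 : ContDiffAt ℝ n (fun z => e' (e.symm z)) (e x) :=
    ((trans_analyticAt he he' hx hx').contDiffAt (n := n)).restrict_scalars ℝ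
  refine ContDiffAt.sum fun p _ => ?_
  have h4 : ContDiffAt ℝ n (fun z => jacM e e' (e.symm z) p i) (e x) :=
    ((jacM_analyticAt he he' hx hx' p i).contDiffAt (n := n)).restrict_scalars ℝ
  refine h4.smul (ContDiffAt.comp (g := fun w => loc10 e' c w p) (e x) ?_ h3)
  have h6 := contDiffAt_pi.1 h p
  simpa only [e.left_inv hx] using h6

theorem reg10_iff {n : WithTop ℕ∞} {c : X → Fin 2 → V} :
    Reg10 n c ↔ ∀ x, ContDiffAt ℝ n (loc10 (chartAt C2 x) c) (chartAt C2 x x) := by
  refine ⟨fun h x => (h _ (chart_mem_atlas C2 x)).contDiffAt ((chartAt C2 x).open_target.mem_nhds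
    (mem_chart_target C2 x)), fun h e he => ?_⟩
  intro z hz
  refine ContDiffAt.contDiffWithinAt ?_
  have := loc10_contDiffAt_change he (chart_mem_atlas C2 (e.symm z)) (e.map_target hz)
    (mem_chart_source C2 (e.symm z)) (h (e.symm z))
  rwa [e.right_inv hz] at this

theorem differentiableAt_change {e e' : Ch X} (he : e ∈ atlas C2 X) (he' : e' ∈ atlas C2 X) {x : X}
    (hx : x ∈ e.source) (hx' : x ∈ e'.source) {f : X → V}
    (h : DifferentiableAt ℝ (fun z => f (e'.symm z)) (e' x)) :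
    DifferentiableAt ℝ (fun z => f (e.symm z)) (e x) := by
  have h1 : (fun z => f (e.symm z)) =ᶠ[𝓝 (e x)] fun z =>
      (fun w => f (e'.symm w)) (e' (e.symm z)) := by
    filter_upwards [(isOpen_trans e e').mem_nhds (mem_trans hx hx')] with z hz
    rw [e'.left_inv hz.2]
  refine DifferentiableAt.congr_of_eventuallyEq ?_ h1
  have h3 : DifferentiableAt ℝ (fun z => e' (e.symm z)) (e x) :=
    (trans_differentiableAt he he' hx hx').restrictScalars ℝ
  refine DifferentiableAt.comp (g := fun w => f (e'.symm w)) (e x) ?_ h3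
  simpa only [e.left_inv hx] using h

/-- `∂` of a function, in an arbitrary chart -/
theorem loc10_del0 {e : Ch X} (he : e ∈ atlas C2 X) {z : C2} (hz : z ∈ e.target)
    {f : X → V} (h : DifferentiableAt ℝ (fun y => f (e.symm y)) z) (i : Fin 2) :
    loc10 e (del0 f) z i = dz i (fun y => f (e.symm y)) z := by
  obtain ⟨x, hx, rfl⟩ : ∃ x ∈ e.source, e x = z := ⟨e.symm z, e.map_target hz, e.right_inv hz⟩
  set e' := chartAt C2 x with he'd
  have he' : e' ∈ atlas C2 X := chart_mem_atlas C2 x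
  have hx' : x ∈ e'.source := mem_chart_source C2 x
  have hd' : DifferentiableAt ℝ (fun y => f (e'.symm y)) (e' x) :=
    differentiableAt_change he' he hx' hx h
  have h1 : (fun z => f (e.symm z)) =ᶠ[𝓝 (e x)] fun z =>
      (fun w => f (e'.symm w)) ((fun y => e' (e.symm y)) z) := by
    filter_upwards [(isOpen_trans e e').mem_nhds (mem_trans hx hx')] with z hz
    rw [e'.left_inv hz.2]
  have h3 := trans_differentiableAt he he' hx hx'
  have hd'' : DifferentiableAt ℝ (fun w => f (e'.symm w)) ((fun z => e' (e.symm z)) (e x)) := by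
    simpa only [e.left_inv hx] using hd'
  rw [dz_congr h1, dz_comp hd'' h3, loc10_source hx, e.left_inv hx]
  rfl

end ten

/-! ### frames -/

section frame

variable {ι : Type} [Fintype ι] [DecidableEq ι]

/-- `s^* / |s|²` -/
def Ts (s : X → EuclideanSpace ℂ ι) (x : X) (k : ι) : ℂ :=
  conj (s x k) / ∑ j, conj (s x j) * s x j

/-- the `(1,0)`-part of `⟨s, ds⟩ / |s|²` -/
def gam (s : X → EuclideanSpace ℂ ι) (x : X) (i : Fin 2) : ℂ :=
  ∑ k, Ts s x k * del0 (fun y => s y k) x i

/-- the `(0,1)`-part of `⟨s, ds⟩ / |s|²` -/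
def the (s : X → EuclideanSpace ℂ ι) (x : X) (j : Fin 2) : ℂ :=
  ∑ k, Ts s x k * dbar0 0 (fun y => s y k) x j

/-- a smooth nowhere zero section of `L` on the open set `U` -/
structure Fr (L : LB X ι) (U : Set X) (s : X → EuclideanSpace ℂ ι) : Prop where
  isOpen : IsOpen U
  smooth : ∀ x ∈ U, ∀ k, ContDiffAt ℝ ∞ (fun z => s ((chartAt C2 x).symm z) k) (chartAt C2 x x)
  sec : ∀ x ∈ U, LB.act (L.P x) (s x) = s x
  ne : ∀ x ∈ U, s x ≠ 0

theorem contDiffAt_change {n : WithTop ℕ∞} {e e' : Ch X} (he : e ∈ atlas C2 X)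
    (he' : e' ∈ atlas C2 X) {x : X} (hx : x ∈ e.source) (hx' : x ∈ e'.source) {V : Type*}
    [NormedAddCommGroup V] [NormedSpace ℂ V] {f : X → V}
    (h : ContDiffAt ℝ n (fun z => f (e'.symm z)) (e' x)) :
    ContDiffAt ℝ n (fun z => f (e.symm z)) (e x) := by
  have h2 : loc0 0 e' f = fun z => f (e'.symm z) := LB.loc0_zero e' f
  have h3 : loc0 0 e f = fun z => f (e.symm z) := LB.loc0_zero e f
  rw [← h2] at h
  rw [← h3]
  exact loc0_contDiffAt_change he he' hx hx' h

namespace Fr

variable {L : LB X ι} {U : Set X} {s : X → EuclideanSpace ℂ ι}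

theorem contDiffAt (h : Fr L U s) {e : Ch X} (he : e ∈ atlas C2 X) {x : X} (hx : x ∈ e.source)
    (hU : x ∈ U) (k : ι) : ContDiffAt ℝ ∞ (fun z => s (e.symm z) k) (e x) :=
  contDiffAt_change (f := fun y => s y k) he (chart_mem_atlas C2 x) hx (mem_chart_source C2 x)
    (h.smooth x hU k)

theorem eventually (h : Fr L U s) {e : Ch X} {x : X} (hx : x ∈ e.source) (hU : x ∈ U) :
    ∀ᶠ z in 𝓝 (e x), z ∈ e.target ∧ e.symm z ∈ U := by
  have h1 : e.target ∩ e.symm ⁻¹' U ∈ 𝓝 (e x) := by
    refine (e.symm.isOpen_inter_preimage h.isOpen).mem_nhds ⟨e.map_source hx, ?_⟩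
    rw [mem_preimage, e.left_inv hx]
    exact hU
  exact h1

theorem nsq_ne (h : Fr L U s) {x : X} (hU : x ∈ U) : ∑ j, conj (s x j) * s x j ≠ 0 := by
  intro h0
  apply h.ne x hU
  have h1 : (fun k => s x k) ⬝ᵥ star (fun k => s x k) = 0 := by
    rw [dotProduct_comm, ← h0]; rfl
  have h2 := dotProduct_self_star_eq_zero.1 h1
  ext k
  exact congrFun h2 k

theorem Ts_smooth (h : Fr L U s) {e : Ch X} (he : e ∈ atlas C2 X) {x : X} (hx : x ∈ e.source)
    (hU : x ∈ U) (k : ι) : ContDiffAt ℝ ∞ (fun z => Ts s (e.symm z) k) (e x) := by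
  have hc : ∀ k, ContDiffAt ℝ ∞ (fun z => conj (s (e.symm z) k)) (e x) := fun k =>
    (Complex.conjCLE.contDiff.contDiffAt).comp (e x) (h.contDiffAt he hx hU k)
  have hm : ∀ k, ContDiffAt ℝ ∞ (fun z => conj (s (e.symm z) k) * s (e.symm z) k) (e x) :=
    fun k => (hc k).mul (h.contDiffAt he hx hU k)
  have hs : ContDiffAt ℝ ∞ (fun z => ∑ j, conj (s (e.symm z) j) * s (e.symm z) j) (e x) :=
    ContDiffAt.sum fun j _ => hm j
  have hi := hs.inv (by rw [e.left_inv hx]; exact h.nsq_ne hU)
  exact (hc k).mul hi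

theorem Ts_mul (h : Fr L U s) {x : X} (hU : x ∈ U) : ∑ k, Ts s x k * s x k = 1 := by
  simp only [Ts, div_mul_eq_mul_div, ← Finset.sum_div]
  exact div_self (h.nsq_ne hU)

theorem P_eq (h : Fr L U s) {x : X} (hU : x ∈ U) (i j : ι) : L.P x i j = s x i * Ts s x j := by
  have h1 : (L.P x).mulVec (fun k => s x k) = fun k => s x k := by
    have := h.sec x hU
    funext k
    exact congrArg (fun v : EuclideanSpace ℂ ι => v k) this
  have h2 : (fun k => s x k) ≠ 0 := by
    intro h0
    apply h.ne x hU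
    ext k
    exact congrFun h0 k
  have h3 := rank_one (L.herm x) (L.idem x) (L.tr x) h1 h2
  rw [h3]
  rfl

theorem loc10_gam (h : Fr L U s) {e : Ch X} (he : e ∈ atlas C2 X) {x : X} (hx : x ∈ e.source)
    (hU : x ∈ U) (i : Fin 2) :
    loc10 e (gam s) (e x) i = ∑ k, Ts s x k * dz i (fun z => s (e.symm z) k) (e x) := by
  have h1 : ∀ k, loc10 e (del0 fun y => s y k) (e x) i = dz i (fun z => s (e.symm z) k) (e x) :=
    fun k => loc10_del0 he (e.map_source hx)
      ((h.contDiffAt he hx hU k).differentiableAt (by simp)) i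
  simp only [← h1, loc10_source hx, gam, Finset.mul_sum, smul_eq_mul]
  rw [Finset.sum_comm]
  refine Finset.sum_congr rfl fun k _ => Finset.sum_congr rfl fun p _ => ?_
  ring

theorem loc1_the (h : Fr L U s) {e : Ch X} (he : e ∈ atlas C2 X) {x : X} (hx : x ∈ e.source)
    (hU : x ∈ U) (i : Fin 2) :
    loc1 0 e (the s) (e x) i = ∑ k, Ts s x k * dzb i (fun z => s (e.symm z) k) (e x) := by
  have h1 : ∀ k, loc1 0 e (dbar0 0 fun y => s y k) (e x) i =
      dzb i (fun z => s (e.symm z) k) (e x) := by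
    intro k
    have hl : loc0 0 e (fun y => s y k) = fun z => s (e.symm z) k := LB.loc0_zero e _
    have hd : DifferentiableAt ℝ (loc0 0 e fun y => s y k) (e x) := by
      rw [hl]
      exact (h.contDiffAt he hx hU k).differentiableAt (by simp)
    rw [loc1_dbar0 he (e.map_source hx) hd i, hl]
  simp only [← h1, loc1_source hx, the, Finset.mul_sum, smul_eq_mul, zpow_zero, one_mul]
  rw [Finset.sum_comm]
  refine Finset.sum_congr rfl fun k _ => Finset.sum_congr rfl fun p _ => ?_
  ring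

theorem loc10_gam_eventually (h : Fr L U s) {e : Ch X} (he : e ∈ atlas C2 X) {x : X}
    (hx : x ∈ e.source) (hU : x ∈ U) (i : Fin 2) :
    (fun z => loc10 e (gam s) z i) =ᶠ[𝓝 (e x)]
      fun z => ∑ k, Ts s (e.symm z) k * dz i (fun y => s (e.symm y) k) z := by
  filter_upwards [h.eventually hx hU] with z hz
  have := h.loc10_gam he (e.map_target hz.1) hz.2 i
  rwa [e.right_inv hz.1] at this

theorem loc1_the_eventually (h : Fr L U s) {e : Ch X} (he : e ∈ atlas C2 X) {x : X}
    (hx : x ∈ e.source) (hU : x ∈ U) (i : Fin 2) :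
    (fun z => loc1 0 e (the s) z i) =ᶠ[𝓝 (e x)]
      fun z => ∑ k, Ts s (e.symm z) k * dzb i (fun y => s (e.symm y) k) z := by
  filter_upwards [h.eventually hx hU] with z hz
  have := h.loc1_the he (e.map_target hz.1) hz.2 i
  rwa [e.right_inv hz.1] at this

/-- `gam s` is smooth on `U` -/
theorem gam_smooth (h : Fr L U s) {e : Ch X} (he : e ∈ atlas C2 X) {x : X} (hx : x ∈ e.source)
    (hU : x ∈ U) : ContDiffAt ℝ ∞ (loc10 e (gam s)) (e x) := by
  rw [contDiffAt_pi]
  intro i
  refine ContDiffAt.congr_of_eventuallyEq ?_ (h.loc10_gam_eventually he hx hU i)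
  exact ContDiffAt.sum fun k _ => (h.Ts_smooth he hx hU k).mul
    (contDiffAt_dz (h.contDiffAt he hx hU k) (by simp) i)

/-- `the s` is smooth on `U` -/
theorem the_smooth (h : Fr L U s) {e : Ch X} (he : e ∈ atlas C2 X) {x : X} (hx : x ∈ e.source)
    (hU : x ∈ U) : ContDiffAt ℝ ∞ (loc1 0 e (the s)) (e x) := by
  rw [contDiffAt_pi]
  intro i
  refine ContDiffAt.congr_of_eventuallyEq ?_ (h.loc1_the_eventually he hx hU i)
  exact ContDiffAt.sum fun k _ => (h.Ts_smooth he hx hU k).mul
    (contDiffAt_dzb (h.contDiffAt he hx hU k) (by simp) i)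

section curv

variable (h : Fr L U s) {x : X} (hU : x ∈ U)

include h hU

theorem core_hyp {D E : (C2 → ℂ) → C2 → ℂ} (hD : WD D) (hE : WD E)
    (hc : ∀ {f : C2 → ℂ} {z : C2}, ContDiffAt ℝ 2 f z → D (E f) z = E (D f) z) :
    (L.P x * ((Matrix.of fun i j => D (fun z => L.P ((chartAt C2 x).symm z) i j) (chartAt C2 x x)) *
        (Matrix.of fun i j => E (fun z => L.P ((chartAt C2 x).symm z) i j) (chartAt C2 x x)) -
      (Matrix.of fun i j => E (fun z => L.P ((chartAt C2 x).symm z) i j) (chartAt C2 x x)) *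
        (Matrix.of fun i j => D (fun z => L.P ((chartAt C2 x).symm z) i j)
          (chartAt C2 x x)))).trace =
      D (fun y => ∑ k, Ts s ((chartAt C2 x).symm y) k *
          E (fun z => s ((chartAt C2 x).symm z) k) y) (chartAt C2 x x) -
        E (fun y => ∑ k, Ts s ((chartAt C2 x).symm y) k *
          D (fun z => s ((chartAt C2 x).symm z) k) y) (chartAt C2 x x) := by
  have he := chart_mem_atlas C2 x
  have hx := mem_chart_source C2 x
  have h0 := core (S := fun k z => s ((chartAt C2 x).symm z) k)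
    (T := fun k z => Ts s ((chartAt C2 x).symm z) k)
    (P := fun i j z => L.P ((chartAt C2 x).symm z) i j) (z := chartAt C2 x x) hD hE hc
    (fun k => (h.contDiffAt he hx hU k).of_le (WithTop.coe_le_coe.2 le_top))
    (fun k => (h.Ts_smooth he hx hU k).of_le (WithTop.coe_le_coe.2 le_top))
    ((h.eventually hx hU).mono fun z hz => h.Ts_mul hz.2)
    ((h.eventually hx hU).mono fun z hz i j => h.P_eq hz.2 i j)
  have h1 : (Matrix.of fun i j => L.P ((chartAt C2 x).symm (chartAt C2 x x)) i j) = L.P x := by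
    rw [(chartAt C2 x).left_inv hx]; rfl
  rw [h1] at h0
  exact h0

theorem F11_eq (i j : Fin 2) : L.F11 x i j = (del1 (the s) x + dbar10 (gam s) x) i j := by
  have he := chart_mem_atlas C2 x
  have hx := mem_chart_source C2 x
  have h0 := h.core_hyp hU (wd_dz i) (wd_dzb j) fun hf => dz_dzb_comm hf i j
  have e1 : ∀ a b : ι, loc0 0 (chartAt C2 x) (fun y => L.P y a b) =
      fun z => L.P ((chartAt C2 x).symm z) a b := fun a b => LB.loc0_zero _ _
  simp only [LB.F11, Matrix.of_apply, del0, dbar0, e1]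
  rw [h0, Matrix.add_apply, del1, dbar10, Matrix.of_apply, Matrix.of_apply,
    dz_congr (h.loc1_the_eventually he hx hU j), dzb_congr (h.loc10_gam_eventually he hx hU i),
    sub_eq_add_neg]

theorem F20_eq : L.F20 x = del10 (gam s) x := by
  have he := chart_mem_atlas C2 x
  have hx := mem_chart_source C2 x
  have h0 := h.core_hyp hU (wd_dz 0) (wd_dz 1) fun hf => dz_dz_comm hf 0 1
  simp only [LB.F20, del0]
  rw [h0, del10, dz_congr (h.loc10_gam_eventually he hx hU 1),
    dz_congr (h.loc10_gam_eventually he hx hU 0)]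

theorem F02_eq : L.F02 x = dbar1 0 (the s) x := by
  have he := chart_mem_atlas C2 x
  have hx := mem_chart_source C2 x
  have h0 := h.core_hyp hU (wd_dzb 0) (wd_dzb 1) fun hf => dzb_dzb_comm hf 0 1
  have e1 : ∀ a b : ι, loc0 0 (chartAt C2 x) (fun y => L.P y a b) =
      fun z => L.P ((chartAt C2 x).symm z) a b := fun a b => LB.loc0_zero _ _
  simp only [LB.F02, dbar0, e1]
  rw [h0, dbar1, dzb_congr (h.loc1_the_eventually he hx hU 1),
    dzb_congr (h.loc1_the_eventually he hx hU 0)]

end curv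

end Fr

end frame

end Vale.Agent.P267.H509
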