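import Vale.Agent.P267.H509.CWTrans

/-! P267 / H509 (package RRC-CW, part W3): the Riemann-Roch density in a chart. -/

set_option linter.unusedSectionVars false

open scoped Manifold ContDiff ComplexConjugate Matrix ComplexOrder
open Set Filter Topology

noncomputable section

namespace Vale.Agent.P267.H509

open Vale.Agent.P267.FL

/-! ### logarithmic derivatives of matrix functions -/

/-- `A⁻¹ ∂A` -/
def cov {n : ℕ} (A : C2 → Matrix (Fin n) (Fin n) ℂ) (z : C2) : MCov n := fun i =>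
  (A z)⁻¹ * Matrix.of fun p q => dz i (fun w => A w p q) z

theorem cov_const {n : ℕ} (A : Matrix (Fin n) (Fin n) ℂ) (z : C2) : cov (fun _ => A) z = 0 := by
  funext i
  have : (Matrix.of fun p q => dz i (fun _ : C2 => A p q) z) = 0 := by
    ext p q
    rw [Matrix.of_apply, (wd_dz i).const]
    rfl
  rw [cov, this, mul_zero]
  rfl

theorem tc_cov_two {A : C2 → Matrix (Fin 2) (Fin 2) ℂ} {z : C2}
    (hA : ∀ p q, DifferentiableAt ℝ (fun w => A w p q) z) (h0 : (A z).det ≠ 0) (i : Fin 2) :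
    tc (cov A z) i = dz i (fun w => (A w).det) z / (A z).det := by
  have h1 : dz i (fun w => (A w).det) z = A z 0 0 * dz i (fun w => A w 1 1) z +
      dz i (fun w => A w 0 0) z * A z 1 1 - (A z 0 1 * dz i (fun w => A w 1 0) z +
        dz i (fun w => A w 0 1) z * A z 1 0) := by
    have e1 : (fun w => (A w).det) = fun w => (fun v => A v 0 0 * A v 1 1) w -
        (fun v => A v 0 1 * A v 1 0) w := by
      funext w; exact Matrix.det_fin_two _
    rw [e1, dz_sub ((hA 0 0).fun_mul (hA 1 1)) ((hA 0 1).fun_mul (hA 1 0)),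
      dz_mul (hA 0 0) (hA 1 1), dz_mul (hA 0 1) (hA 1 0)]
  rw [h1, tc, cov, Matrix.inv_def, Matrix.smul_mul, Matrix.trace_smul, Ring.inverse_eq_inv',
    Matrix.adjugate_fin_two, Matrix.trace_fin_two]
  simp only [Matrix.mul_apply, Fin.sum_univ_two, Matrix.of_apply, smul_eq_mul, Matrix.cons_val',
    Matrix.cons_val_zero, Matrix.cons_val_one, Matrix.cons_val_fin_one]
  field_simp
  ring

theorem tc_cov_one {A : C2 → Matrix (Fin 1) (Fin 1) ℂ} {z : C2} (i : Fin 2) :
    tc (cov A z) i = dz i (fun w => A w 0 0) z / A z 0 0 := by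
  rw [tc, cov, Matrix.inv_def, Matrix.smul_mul, Matrix.trace_smul, Ring.inverse_eq_inv']
  simp only [Matrix.det_unique, Matrix.trace, Matrix.diag, Finset.univ_unique,
    Finset.sum_singleton, Matrix.mul_apply, Matrix.of_apply, smul_eq_mul, Fin.default_eq_zero,
    Matrix.adjugate_subsingleton, Matrix.one_apply_eq]
  ring

/-- the cocycle of the cotangent bundle -/
theorem cov_inv_transpose {n : ℕ} {A : C2 → Matrix (Fin n) (Fin n) ℂ} {z : C2}
    (hA : ∀ p q, DifferentiableAt ℝ (fun w => A w p q) z)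
    (hAi : ∀ p q, DifferentiableAt ℝ (fun w => (A w)⁻¹ p q) z)
    (h0 : ∀ᶠ w in 𝓝 z, (A w).det ≠ 0) :
    cov (fun w => ((A w)⁻¹)ᵀ) z = fun i => -(cov A z i)ᵀ := by
  funext i
  have hu : IsUnit (A z).det := isUnit_iff_ne_zero.2 h0.self_of_nhds
  -- derivative of `A⁻¹ A = 1`
  have h1 : (Matrix.of fun p q => dz i (fun w => (A w)⁻¹ p q) z) * A z +
      (A z)⁻¹ * (Matrix.of fun p q => dz i (fun w => A w p q) z) = 0 := by
    ext p q
    have e1 : (fun w => ∑ k, (A w)⁻¹ p k * A w k q) =ᶠ[𝓝 z]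
        fun _ => (1 : Matrix (Fin n) (Fin n) ℂ) p q := by
      filter_upwards [h0] with w hw
      have := congrFun (congrFun (Matrix.nonsing_inv_mul (A w) (isUnit_iff_ne_zero.2 hw)) p) q
      rwa [Matrix.mul_apply] at this
    have e2 := dz_congr e1 i
    rw [(wd_dz i).const, dz_sum Finset.univ fun k _ => (hAi p k).fun_mul (hA k q)] at e2
    simp only [dz_mul (hAi p _) (hA _ q), Finset.sum_add_distrib] at e2
    simp only [Matrix.add_apply, Matrix.mul_apply, Matrix.of_apply, Matrix.zero_apply]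
    linear_combination e2
  have h2 : (Matrix.of fun p q => dz i (fun w => (A w)⁻¹ p q) z) =
      -((A z)⁻¹ * (Matrix.of fun p q => dz i (fun w => A w p q) z) * (A z)⁻¹) := by
    have e3 := congrArg (fun M => M * (A z)⁻¹) h1
    simp only [add_mul, zero_mul, Matrix.mul_assoc, Matrix.mul_nonsing_inv _ hu, mul_one] at e3
    rw [Matrix.mul_assoc]
    exact eq_neg_of_add_eq_zero_left e3
  have h3 : (Matrix.of fun p q => dz i (fun w => ((A w)⁻¹)ᵀ p q) z) =
      (Matrix.of fun p q => dz i (fun w => (A w)⁻¹ p q) z)ᵀ := rfl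
  have h4 : (((A z)⁻¹)ᵀ)⁻¹ = (A z)ᵀ := by
    rw [Matrix.transpose_nonsing_inv, Matrix.nonsing_inv_nonsing_inv]
    rwa [Matrix.det_transpose]
  rw [cov, cov, h3, h4, ← Matrix.transpose_mul, h2, neg_mul, Matrix.mul_assoc, Matrix.mul_assoc,
    Matrix.nonsing_inv_mul _ hu, mul_one, Matrix.transpose_neg]

/-! ### the change of charts for `wed` -/

theorem wed_change (M M' : Fin 2 → Fin 2 → ℂ) (J : Matrix (Fin 2) (Fin 2) ℂ) :
    wed (fun i j => ∑ p, ∑ q, J p i * conj (J q j) * M p q)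
      (fun i j => ∑ p, ∑ q, J p i * conj (J q j) * M' p q) =
      J.det * (conj J.det * wed M M') := by
  simp only [wed, Fin.sum_univ_two, Matrix.det_fin_two, map_sub, map_mul]
  ring

section dens

variable {X : Type*} [TopologicalSpace X] [ChartedSpace C2 X] [IsManifold 𝓘(ℂ, C2) ω X]
variable {I : Type} [Fintype I]

theorem loc2_wed (γ γ' l : I → X → Fin 2 → ℂ) {e : Ch X} {x : X} (hx : x ∈ e.source) :
    loc2 1 e (fun y => wed (thet (fun b => γ b y) fun b => l b y)
        (thet (fun b => γ' b y) fun b => l b y)) (e x) =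
      wed (thet (fun b => loc10 e (γ b) (e x)) fun b => loc1 0 e (l b) (e x))
        (thet (fun b => loc10 e (γ' b) (e x)) fun b => loc1 0 e (l b) (e x)) := by
  have h1 : ∀ δ : I → X → Fin 2 → ℂ,
      thet (fun b => loc10 e (δ b) (e x)) (fun b => loc1 0 e (l b) (e x)) =
      fun i j => ∑ p, ∑ q, jac e x p i * conj (jac e x q j) *
        thet (fun b => δ b x) (fun b => l b x) p q := by
    intro δ
    funext i j
    simp only [thet, loc10_source hx, loc1_source hx, zpow_zero, smul_eq_mul,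
      Fin.sum_univ_two, mul_neg, Finset.mul_sum, ← Finset.sum_add_distrib, ← Finset.sum_neg_distrib]
    exact Finset.sum_congr rfl fun b _ => by ring
  rw [h1, h1, wed_change, loc2_source hx, zpow_one, smul_eq_mul, smul_eq_mul]

/-- `∂̄ρ_b` in the chart `e` -/
def dbl (ρ : I → X → ℂ) (e : Ch X) (z : C2) (b : I) (j : Fin 2) : ℂ :=
  dzb j (fun w => ρ b (e.symm w)) z

/-- the density of the Riemann-Roch theorem in the chart `e a`, for the cocycles `J a b` (Jacobian
matrices) and `E a b` (rank `r` bundle) -/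
def dens {r : ℕ} (ρ : I → X → ℂ) (e : Ch X) (J : I → C2 → Matrix (Fin 2) (Fin 2) ℂ)
    (E : I → C2 → Matrix (Fin r) (Fin r) ℂ) (z : C2) : ℂ :=
  ∑ b, ∑ c, w2 (dbl ρ e z b) (dbl ρ e z c) *
    Rd r (cov (J b) z) (cov (J c) z) (cov (E b) z) (cov (E c) z)

theorem dbl_zero {U : I → Set X} {ρ : I → X → ℂ} (hρ : PU U ρ) {e : Ch X} {x : X}
    (hx : x ∈ e.source) {b : I} (hb : x ∉ U b) : dbl ρ e (e x) b = 0 := by
  funext j
  exact cut_D0 (wd_dzb j) (hρ.supp b) hx hb

theorem loc1_dbar_rho {U : I → Set X} {ρ : I → X → ℂ} (hρ : PU U ρ) {e : Ch X}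
    (he : e ∈ atlas C2 X) {x : X} (hx : x ∈ e.source) (b : I) :
    loc1 0 e (dbar0 0 (ρ b)) (e x) = dbl ρ e (e x) b := by
  funext j
  have h1 : loc0 0 e (ρ b) = fun w => ρ b (e.symm w) := LB.loc0_zero _ _
  rw [loc1_dbar0 he (e.map_source hx), h1]
  · rfl
  · rw [h1]
    exact (reg0_contDiffAt (hρ.smooth b) he hx).differentiableAt (by simp)

theorem sum_dbl {U : I → Set X} {ρ : I → X → ℂ} (hρ : PU U ρ) {e : Ch X}
    (he : e ∈ atlas C2 X) {x : X} (hx : x ∈ e.source) (j : Fin 2) :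
    ∑ b, dbl ρ e (e x) b j = 0 := hρ.sum_D (wd_dzb j) he hx

theorem sum_replace {l : I → Fin 2 → ℂ} {A : Type*} (F : A → A → ℂ) {u u' : I → A}
    (h : ∀ b, l b = 0 ∨ u b = u' b) :
    ∑ b, ∑ c, w2 (l b) (l c) * F (u b) (u c) = ∑ b, ∑ c, w2 (l b) (l c) * F (u' b) (u' c) := by
  refine Finset.sum_congr rfl fun b _ => Finset.sum_congr rfl fun c _ => ?_
  rcases h b with hb | hb
  · simp [hb, w2]
  · rcases h c with hc | hc
    · simp [hc, w2]
    · rw [hb, hc]

end dens

end Vale.Agent.P267.H509
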