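import Vale.Agent.P267.H509.CWDens
import Vale.Agent.P267.H533.Bump
import Vale.Agent.P267.H221.Out

/-! P267 / H509 (package RRC-CW, part W3): from the density formula to Riemann-Roch and Noether. -/

set_option linter.unusedSectionVars false

open scoped Manifold ContDiff ComplexConjugate Matrix ComplexOrder
open Set Filter Topology MeasureTheory

noncomputable section

namespace Vale.Agent.P267.H509

open Vale.Agent.P267.FL Vale.Agent.P267.RR

variable {X : Type*} [TopologicalSpace X] [ChartedSpace C2 X] [IsManifold 𝓘(ℂ, C2) ω X]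
variable {I : Type} [Fintype I] {ι : Type} [Fintype ι] [DecidableEq ι] {ι' : Type} [Fintype ι']
  [DecidableEq ι']

/-- the Jacobian cocycle in the chart `e` -/
def Jc (e e' : Ch X) (z : C2) : Matrix (Fin 2) (Fin 2) ℂ := jacM e e' (e.symm z)

/-- the cocycle of the cotangent bundle in the chart `e` -/
def Oc (e e' : Ch X) (z : C2) : Matrix (Fin 2) (Fin 2) ℂ := (Jc e e' z)⁻¹ᵀ

theorem Jc_diff {e e' : Ch X} (he : e ∈ atlas C2 X) (he' : e' ∈ atlas C2 X) {x : X}
    (hx : x ∈ e.source) (hx' : x ∈ e'.source) (p q : Fin 2) :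
    DifferentiableAt ℝ (fun w => Jc e e' w p q) (e x) :=
  (jacM_analyticAt he he' hx hx' p q).differentiableAt.restrictScalars ℝ

theorem Jc_det {e e' : Ch X} (he : e ∈ atlas C2 X) (he' : e' ∈ atlas C2 X) {x : X}
    (hx : x ∈ e.source) (hx' : x ∈ e'.source) : ∀ᶠ w in 𝓝 (e x), (Jc e e' w).det ≠ 0 := by
  filter_upwards [(isOpen_trans e e').mem_nhds (mem_trans hx hx')] with z hz
  exact jacM_det_ne_zero he he' (e.map_target hz.1) hz.2

theorem Jc_inv_analytic {e e' : Ch X} (he : e ∈ atlas C2 X) (he' : e' ∈ atlas C2 X) {x : X}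
    (hx : x ∈ e.source) (hx' : x ∈ e'.source) (p q : Fin 2) :
    AnalyticAt ℂ (fun w => (Jc e e' w)⁻¹ p q) (e x) := by
  have h0 : (Jc e e' (e x)).det ≠ 0 := (Jc_det he he' hx hx').self_of_nhds
  have h1 : ∀ p q, AnalyticAt ℂ (fun w => (Jc e e' w).adjugate p q) (e x) := by
    intro p q
    have hJ := fun p q => jacM_analyticAt he he' hx hx' p q
    fin_cases p <;> fin_cases q
    · simpa [Matrix.adjugate_fin_two, Jc] using hJ 1 1
    · have h : (fun w => (Jc e e' w).adjugate 0 1) = -fun w => jacM e e' (e.symm w) 0 1 := by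
        funext w
        simp [Matrix.adjugate_fin_two, Jc]
      exact h ▸ (hJ 0 1).neg
    · have h : (fun w => (Jc e e' w).adjugate 1 0) = -fun w => jacM e e' (e.symm w) 1 0 := by
        funext w
        simp [Matrix.adjugate_fin_two, Jc]
      exact h ▸ (hJ 1 0).neg
    · simpa [Matrix.adjugate_fin_two, Jc] using hJ 0 0
  have h2 : (fun w => (Jc e e' w)⁻¹ p q) = fun w => ((Jc e e' w).det)⁻¹ *
      (Jc e e' w).adjugate p q := by
    funext w
    rw [Matrix.inv_def, Ring.inverse_eq_inv', Matrix.smul_apply, smul_eq_mul]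
  rw [h2]
  exact ((det_analyticAt he he' hx hx').inv h0).mul (h1 p q)

/-- the trace of the Atiyah cocycle of the tangent bundle, through the frames of `K` -/
theorem tc_Jc {L : LB X ι'} {σ : X → EuclideanSpace ℂ ι'} (h1 : Reg0 ∞ (-1) σ) (h2 : L.Sec σ)
    (h3 : ∀ x, σ x ≠ 0) {e e' : Ch X} (he : e ∈ atlas C2 X) (he' : e' ∈ atlas C2 X) {x : X}
    (hx : x ∈ e.source) (hx' : x ∈ e'.source) :
    tc (cov (Jc e e') (e x)) = loc10 e (gam (kfr σ e')) (e x) - loc10 e (gam (kfr σ e)) (e x) := by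
  funext i
  rw [tc_cov_two (Jc_diff he he' hx hx') (Jc_det he he' hx hx').self_of_nhds, Pi.sub_apply,
    loc10_gam_kfr h1 h2 h3 he he' hx hx' i]
  simp only [Jc, e.left_inv hx]
  ring

/-- the cocycle of the cotangent bundle -/
theorem cov_Oc {e e' : Ch X} (he : e ∈ atlas C2 X) (he' : e' ∈ atlas C2 X) {x : X}
    (hx : x ∈ e.source) (hx' : x ∈ e'.source) :
    cov (Oc e e') (e x) = fun i => -(cov (Jc e e') (e x) i)ᵀ :=
  cov_inv_transpose (Jc_diff he he' hx hx')
    (fun p q => (Jc_inv_analytic he he' hx hx' p q).differentiableAt.restrictScalars ℝ)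
    (Jc_det he he' hx hx')

/-- transition functions of the frames `s`: `s a = E a b • s b` on `U a ∩ U b`, `E a b` being
expressed in the chart `e a` -/
structure Trans (e : I → Ch X) (U : I → Set X) (s : I → X → EuclideanSpace ℂ ι)
    (E : I → I → C2 → Matrix (Fin 1) (Fin 1) ℂ) : Prop where
  diff : ∀ a b, ∀ x ∈ U a ∩ U b, DifferentiableAt ℝ (fun w => E a b w 0 0) (e a x)
  ne : ∀ a b, ∀ x ∈ U a ∩ U b, E a b (e a x) 0 0 ≠ 0
  eq : ∀ a b, ∀ x ∈ U a ∩ U b, s a x = E a b (e a x) 0 0 • s b x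

theorem tc_E {L : LB X ι} {e : I → Ch X} {U : I → Set X} {s : I → X → EuclideanSpace ℂ ι}
    {E : I → I → C2 → Matrix (Fin 1) (Fin 1) ℂ} (hs : ∀ a, Fr L (U a) (s a))
    (he : ∀ a, e a ∈ atlas C2 X) (hU : ∀ a, U a ⊆ (e a).source) (hE : Trans e U s E) (a b : I)
    {x : X} (ha : x ∈ U a) (hb : x ∈ U b) :
    tc (cov (E a b) (e a x)) = loc10 (e a) (gam (s a)) (e a x) - loc10 (e a) (gam (s b)) (e a x) := by
  have hx := hU a ha
  funext i
  have h1 : (fun z => E a b (e a ((e a).symm z)) 0 0) =ᶠ[𝓝 (e a x)] fun z => E a b z 0 0 := by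
    filter_upwards [(e a).open_target.mem_nhds ((e a).map_source hx)] with z hz
    rw [(e a).right_inv hz]
  have h2 := loc10_gam_trans (hs b) (hs a) (he a) hx hb ha (g := fun y => E a b (e a y) 0 0)
    ((hE.diff a b x ⟨ha, hb⟩).congr_of_eventuallyEq h1) (hE.ne a b x ⟨ha, hb⟩)
    (by
      filter_upwards [(hs a).isOpen.mem_nhds ha, (hs b).isOpen.mem_nhds hb] with y hy hy'
      exact hE.eq a b y ⟨hy, hy'⟩) i
  rw [tc_cov_one, Pi.sub_apply, h2, dz_congr h1]
  ring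

/-! ### pointwise identities -/

section pointwise

variable {e : I → Ch X} {U : I → Set X} {ρ : I → X → ℂ} {LK : LB X ι'}
  {σ : X → EuclideanSpace ℂ ι'}

theorem loc2_Th (hρ : PU U ρ) {s : I → X → EuclideanSpace ℂ ι} {s' : I → X → EuclideanSpace ℂ ι'}
    {e : Ch X} (he : e ∈ atlas C2 X) {x : X} (hx : x ∈ e.source) :
    loc2 1 e (fun y => wed (Th ρ s y) (Th ρ s' y)) (e x) =
      wed (thet (fun b => loc10 e (gam (s b)) (e x)) (dbl ρ e (e x)))
        (thet (fun b => loc10 e (gam (s' b)) (e x)) (dbl ρ e (e x))) := by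
  have h := loc2_wed (fun b => gam (s b)) (fun b => gam (s' b)) (fun b => dbar0 0 (ρ b)) hx
  have h1 : (fun b => loc1 0 e (dbar0 0 (ρ b)) (e x)) = dbl ρ e (e x) := by
    funext b
    exact loc1_dbar_rho hρ he hx b
  rw [h1] at h
  exact h

/-- **`10 dens(𝒪) + dens(Ω¹) = c₁(K)²`** -/
theorem dens_noether (hρ : PU U ρ) (h1 : Reg0 ∞ (-1) σ) (h2 : LK.Sec σ) (h3 : ∀ x, σ x ≠ 0)
    (he : ∀ a, e a ∈ atlas C2 X) (hU : ∀ a, U a ⊆ (e a).source) (a : I) {x : X} (ha : x ∈ U a) :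
    10 * dens ρ (e a) (fun b => Jc (e a) (e b)) (fun _ _ => (1 : Matrix (Fin 1) (Fin 1) ℂ)) (e a x) +
      dens ρ (e a) (fun b => Jc (e a) (e b)) (fun b => Oc (e a) (e b)) (e a x) =
    -loc2 1 (e a) (fun y => wed (Th ρ (fun b => kfr σ (e b)) y) (Th ρ (fun b => kfr σ (e b)) y))
      (e a x) := by
  have hx := hU a ha
  have e1 : 10 * dens ρ (e a) (fun b => Jc (e a) (e b)) (fun _ _ => (1 : Matrix (Fin 1) (Fin 1) ℂ))
        (e a x) + dens ρ (e a) (fun b => Jc (e a) (e b)) (fun b => Oc (e a) (e b)) (e a x) =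
      ∑ b, ∑ c, w2 (dbl ρ (e a) (e a x) b) (dbl ρ (e a) (e a x) c) *
        (10 * Rd 1 (cov (Jc (e a) (e b)) (e a x)) (cov (Jc (e a) (e c)) (e a x)) 0 0 +
          Rd 2 (cov (Jc (e a) (e b)) (e a x)) (cov (Jc (e a) (e c)) (e a x))
            (cov (Oc (e a) (e b)) (e a x)) (cov (Oc (e a) (e c)) (e a x))) := by
    simp only [dens, cov_const, Finset.mul_sum, ← Finset.sum_add_distrib]
    refine Finset.sum_congr rfl fun b _ => Finset.sum_congr rfl fun c _ => ?_
    ring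
  have e2 := sum_replace (l := dbl ρ (e a) (e a x)) (A := MCov 2 × MCov 2)
    (fun u v => 10 * Rd 1 u.1 v.1 0 0 + Rd 2 u.1 v.1 u.2 v.2)
    (u := fun b => (cov (Jc (e a) (e b)) (e a x), cov (Oc (e a) (e b)) (e a x)))
    (u' := fun b => (cov (Jc (e a) (e b)) (e a x), fun i => -(cov (Jc (e a) (e b)) (e a x) i)ᵀ))
    (fun b => by
      by_cases hb : x ∈ U b
      · right
        rw [cov_Oc (he a) (he b) hx (hU b hb)]
      · left
        exact dbl_zero hρ hx hb)
  simp only [Rd_noether] at e2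
  have e3 := sum_replace (l := dbl ρ (e a) (e a x)) (A := Fin 2 → ℂ) (fun u v => w2 u v)
    (u := fun b => tc (cov (Jc (e a) (e b)) (e a x)))
    (u' := fun b => loc10 (e a) (gam (kfr σ (e b))) (e a x) -
      loc10 (e a) (gam (kfr σ (e a))) (e a x))
    (fun b => by
      by_cases hb : x ∈ U b
      · right
        rw [tc_Jc h1 h2 h3 (he a) (he b) hx (hU b hb)]
      · left
        exact dbl_zero hρ hx hb)
  have e4 := sum_shift (fun b => loc10 (e a) (gam (kfr σ (e b))) (e a x))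
    (fun b => loc10 (e a) (gam (kfr σ (e b))) (e a x)) (loc10 (e a) (gam (kfr σ (e a))) (e a x))
    (loc10 (e a) (gam (kfr σ (e a))) (e a x)) (dbl ρ (e a) (e a x)) (sum_dbl hρ (he a) hx)
  rw [e1, e2, e3, loc2_Th hρ (he a) hx]
  simp only [← two_mul, mul_left_comm _ (2 : ℂ), ← Finset.mul_sum] at e4
  linear_combination (1 / 2 : ℂ) * e4

/-- **`dens(L) - dens(𝒪)`** -/
theorem dens_rr (hρ : PU U ρ) (h1 : Reg0 ∞ (-1) σ) (h2 : LK.Sec σ) (h3 : ∀ x, σ x ≠ 0)
    (he : ∀ a, e a ∈ atlas C2 X) (hU : ∀ a, U a ⊆ (e a).source) {L : LB X ι}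
    {s : I → X → EuclideanSpace ℂ ι} {E : I → I → C2 → Matrix (Fin 1) (Fin 1) ℂ}
    (hs : ∀ a, Fr L (U a) (s a)) (hE : Trans e U s E) (a : I) {x : X} (ha : x ∈ U a) :
    dens ρ (e a) (fun b => Jc (e a) (e b)) (E a) (e a x) -
      dens ρ (e a) (fun b => Jc (e a) (e b)) (fun _ _ => (1 : Matrix (Fin 1) (Fin 1) ℂ)) (e a x) =
    1 / 2 * loc2 1 (e a) (fun y => wed (Th ρ (fun b => kfr σ (e b)) y) (Th ρ s y)) (e a x) -
      1 / 2 * loc2 1 (e a) (fun y => wed (Th ρ s y) (Th ρ s y)) (e a x) := by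
  have hx := hU a ha
  have e1 : dens ρ (e a) (fun b => Jc (e a) (e b)) (E a) (e a x) -
      dens ρ (e a) (fun b => Jc (e a) (e b)) (fun _ _ => (1 : Matrix (Fin 1) (Fin 1) ℂ)) (e a x) =
      ∑ b, ∑ c, w2 (dbl ρ (e a) (e a x) b) (dbl ρ (e a) (e a x) c) *
        (Rd 1 (cov (Jc (e a) (e b)) (e a x)) (cov (Jc (e a) (e c)) (e a x))
            (cov (E a b) (e a x)) (cov (E a c) (e a x)) -
          Rd 1 (cov (Jc (e a) (e b)) (e a x)) (cov (Jc (e a) (e c)) (e a x)) 0 0) := by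
    simp only [dens, cov_const, ← Finset.sum_sub_distrib]
    refine Finset.sum_congr rfl fun b _ => Finset.sum_congr rfl fun c _ => ?_
    ring
  simp only [Rd_sub] at e1
  have e2 := sum_replace (l := dbl ρ (e a) (e a x)) (A := (Fin 2 → ℂ) × (Fin 2 → ℂ))
    (fun u v => 1 / 4 * (w2 u.1 v.2 + w2 u.2 v.1) + 1 / 2 * w2 u.2 v.2)
    (u := fun b => (tc (cov (Jc (e a) (e b)) (e a x)), tc (cov (E a b) (e a x))))
    (u' := fun b => (loc10 (e a) (gam (kfr σ (e b))) (e a x) -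
      loc10 (e a) (gam (kfr σ (e a))) (e a x),
      loc10 (e a) (gam (s a)) (e a x) - loc10 (e a) (gam (s b)) (e a x)))
    (fun b => by
      by_cases hb : x ∈ U b
      · right
        rw [tc_Jc h1 h2 h3 (he a) (he b) hx (hU b hb), tc_E hs he hU hE a b ha hb]
      · left
        exact dbl_zero hρ hx hb)
  have e3 := sum_shift (fun b => loc10 (e a) (gam (kfr σ (e b))) (e a x))
    (fun b => loc10 (e a) (gam (s b)) (e a x)) (loc10 (e a) (gam (kfr σ (e a))) (e a x))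
    (loc10 (e a) (gam (s a)) (e a x)) (dbl ρ (e a) (e a x)) (sum_dbl hρ (he a) hx)
  have e4 := sum_shift (fun b => loc10 (e a) (gam (s b)) (e a x))
    (fun b => loc10 (e a) (gam (s b)) (e a x)) (loc10 (e a) (gam (s a)) (e a x))
    (loc10 (e a) (gam (s a)) (e a x)) (dbl ρ (e a) (e a x)) (sum_dbl hρ (he a) hx)
  rw [e1, e2, loc2_Th hρ (he a) hx, loc2_Th hρ (he a) hx]
  have e5 : ∀ b c, w2 (dbl ρ (e a) (e a x) b) (dbl ρ (e a) (e a x) c) *
      (1 / 4 * (w2 (loc10 (e a) (gam (kfr σ (e b))) (e a x) -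
          loc10 (e a) (gam (kfr σ (e a))) (e a x))
        (loc10 (e a) (gam (s a)) (e a x) - loc10 (e a) (gam (s c)) (e a x)) +
        w2 (loc10 (e a) (gam (s a)) (e a x) - loc10 (e a) (gam (s b)) (e a x))
          (loc10 (e a) (gam (kfr σ (e c))) (e a x) - loc10 (e a) (gam (kfr σ (e a))) (e a x))) +
        1 / 2 * w2 (loc10 (e a) (gam (s a)) (e a x) - loc10 (e a) (gam (s b)) (e a x))
          (loc10 (e a) (gam (s a)) (e a x) - loc10 (e a) (gam (s c)) (e a x))) =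
      -(1 / 4) * (w2 (dbl ρ (e a) (e a x) b) (dbl ρ (e a) (e a x) c) *
        (w2 (loc10 (e a) (gam (kfr σ (e b))) (e a x) - loc10 (e a) (gam (kfr σ (e a))) (e a x))
          (loc10 (e a) (gam (s c)) (e a x) - loc10 (e a) (gam (s a)) (e a x)) +
        w2 (loc10 (e a) (gam (s b)) (e a x) - loc10 (e a) (gam (s a)) (e a x))
          (loc10 (e a) (gam (kfr σ (e c))) (e a x) - loc10 (e a) (gam (kfr σ (e a))) (e a x)))) +
      1 / 4 * (w2 (dbl ρ (e a) (e a x) b) (dbl ρ (e a) (e a x) c) *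
        (w2 (loc10 (e a) (gam (s b)) (e a x) - loc10 (e a) (gam (s a)) (e a x))
          (loc10 (e a) (gam (s c)) (e a x) - loc10 (e a) (gam (s a)) (e a x)) +
        w2 (loc10 (e a) (gam (s b)) (e a x) - loc10 (e a) (gam (s a)) (e a x))
          (loc10 (e a) (gam (s c)) (e a x) - loc10 (e a) (gam (s a)) (e a x)))) := by
    intro b c
    simp only [w2, Pi.sub_apply]
    ring
  simp only [e5, Finset.sum_add_distrib, ← Finset.mul_sum, e3, e4]
  ring

end pointwise

end Vale.Agent.P267.H509
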