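import Vale.Agent.P267.H399.Calc

/-! P267 / H509 (package RRC-CW, part W2): the curvature of a projector line bundle in a smooth
nowhere zero local section (frame) `s`: `curv L = d (⟨s, ds⟩ / |s|²)`. -/

set_option linter.unusedSectionVars false

open scoped Manifold ContDiff ComplexConjugate Matrix ComplexOrder
open Set Filter Topology

noncomputable section

namespace Vale.Agent.P267.H509

open Vale.Agent.P267.FL

/-! ### algebra of rank one projectors -/

section alg

variable {ι : Type} [Fintype ι] [DecidableEq ι]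

/-- `P = S T`, `T S = 1`, derivations `D`, `E`: `tr P (DP EP - EP DP) = DT·ES - ET·DS`. -/
theorem tr_alg (S T DS DT ES ET : ι → ℂ) (h : T ⬝ᵥ S = 1) (hD : DT ⬝ᵥ S = -(T ⬝ᵥ DS))
    (hE : ET ⬝ᵥ S = -(T ⬝ᵥ ES)) :
    (Matrix.vecMulVec S T * ((Matrix.vecMulVec DS T + Matrix.vecMulVec S DT) *
        (Matrix.vecMulVec ES T + Matrix.vecMulVec S ET) -
      (Matrix.vecMulVec ES T + Matrix.vecMulVec S ET) *
        (Matrix.vecMulVec DS T + Matrix.vecMulVec S DT))).trace =
      DT ⬝ᵥ ES - ET ⬝ᵥ DS := by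
  have c1 : S ⬝ᵥ T = 1 := by rw [dotProduct_comm]; exact h
  have c2 : S ⬝ᵥ DT = -(T ⬝ᵥ DS) := by rw [dotProduct_comm]; exact hD
  have c3 : S ⬝ᵥ ET = -(T ⬝ᵥ ES) := by rw [dotProduct_comm]; exact hE
  simp only [mul_sub, add_mul, mul_add, Matrix.vecMulVec_mul_vecMulVec, Matrix.trace_sub,
    Matrix.trace_add, Matrix.trace_vecMulVec, smul_eq_mul, Matrix.vecMulVec_smul,
    Matrix.trace_smul, Matrix.mul_smul, h, hD, hE, c1, c2, c3]
  ring

/-- a hermitian projector of trace one fixing `s ≠ 0` is `s s^* / |s|²` -/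
theorem rank_one {P : Matrix ι ι ℂ} (hh : Pᴴ = P) (hi : P * P = P) (ht : P.trace = 1)
    {s : ι → ℂ} (hs : P.mulVec s = s) (h0 : s ≠ 0) :
    P = Matrix.vecMulVec s (fun k => conj (s k) / ∑ j, conj (s j) * s j) := by
  set n : ℂ := ∑ j, conj (s j) * s j with hn
  have hn0 : n ≠ 0 := by
    intro h
    apply h0
    have h1 : s ⬝ᵥ star s = 0 := by
      rw [dotProduct_comm, ← h, hn]; rfl
    exact dotProduct_self_star_eq_zero.1 h1
  have hnc : conj n = n := by
    rw [hn, map_sum]
    refine Finset.sum_congr rfl fun j _ => ?_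
    rw [map_mul, Complex.conj_conj, mul_comm]
  set R := Matrix.vecMulVec s (fun k => conj (s k) / n) with hR
  have hvs : (fun k => conj (s k) / n) ⬝ᵥ s = 1 := by
    simp only [dotProduct, div_mul_eq_mul_div, ← Finset.sum_div]
    rw [← hn, div_self hn0]
  have hRR : R * R = R := by
    rw [hR, Matrix.vecMulVec_mul_vecMulVec, hvs, one_smul]
  have hPR : P * R = R := by
    rw [hR, Matrix.mul_vecMulVec, hs]
  have hRh : Rᴴ = R := by
    ext i j
    simp only [hR, Matrix.conjTranspose_apply, Matrix.vecMulVec_apply, star_mul', RCLike.star_def,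
      map_div₀, Complex.conj_conj, hnc]
    ring
  have hRP : R * P = R := by
    have := congrArg Matrix.conjTranspose hPR
    rwa [Matrix.conjTranspose_mul, hh, hRh] at this
  have hQ : (P - R)ᴴ * (P - R) = P - R := by
    rw [Matrix.conjTranspose_sub, hh, hRh, sub_mul, mul_sub, mul_sub, hi, hPR, hRP, hRR]
    abel
  have hRt : R.trace = 1 := by
    rw [hR, Matrix.trace_vecMulVec, dotProduct_comm, hvs]
  have h1 : ((P - R)ᴴ * (P - R)).trace = 0 := by
    rw [hQ, Matrix.trace_sub, ht, hRt, sub_self]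
  have h2 := Matrix.trace_conjTranspose_mul_self_eq_zero_iff.1 h1
  exact sub_eq_zero.1 h2

end alg

/-! ### abstract Wirtinger operators -/

/-- a first order derivation on functions on `ℂ²` -/
structure WD (D : (C2 → ℂ) → C2 → ℂ) : Prop where
  congr : ∀ {f g : C2 → ℂ} {z : C2}, f =ᶠ[𝓝 z] g → D f z = D g z
  mul : ∀ {f g : C2 → ℂ} {z : C2}, DifferentiableAt ℝ f z → DifferentiableAt ℝ g z →
    D (fun y => f y * g y) z = f z * D g z + D f z * g z
  sum : ∀ {ι : Type} (s : Finset ι) {f : ι → C2 → ℂ} {z : C2},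
    (∀ i ∈ s, DifferentiableAt ℝ (f i) z) → D (fun y => ∑ i ∈ s, f i y) z = ∑ i ∈ s, D (f i) z
  smooth : ∀ {f : C2 → ℂ} {z : C2} {m n : WithTop ℕ∞}, ContDiffAt ℝ n f z → m + 1 ≤ n →
    ContDiffAt ℝ m (D f) z
  const : ∀ (c : ℂ) (z : C2), D (fun _ => c) z = 0

theorem wd_dz (j : Fin 2) : WD (dz j) where
  congr h := dz_congr h j
  mul hf hg := dz_mul hf hg j
  sum s f z h := dz_sum s h j
  smooth hf hmn := contDiffAt_dz hf hmn j
  const c z := by simp [dz]

theorem wd_dzb (j : Fin 2) : WD (dzb j) where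
  congr h := dzb_congr h j
  mul hf hg := dzb_mul hf hg j
  sum s f z h := dzb_sum s h j
  smooth hf hmn := contDiffAt_dzb hf hmn j
  const c z := by simp [dzb]

section core

variable {ι : Type} [Fintype ι] [DecidableEq ι]

theorem core {D E : (C2 → ℂ) → C2 → ℂ} (hD : WD D) (hE : WD E)
    (hc : ∀ {f : C2 → ℂ} {z : C2}, ContDiffAt ℝ 2 f z → D (E f) z = E (D f) z)
    {S T : ι → C2 → ℂ} {P : ι → ι → C2 → ℂ} {z : C2}
    (hS : ∀ k, ContDiffAt ℝ 2 (S k) z) (hT : ∀ k, ContDiffAt ℝ 2 (T k) z)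
    (h1 : ∀ᶠ y in 𝓝 z, ∑ k, T k y * S k y = 1)
    (hP : ∀ᶠ y in 𝓝 z, ∀ i j, P i j y = S i y * T j y) :
    ((Matrix.of fun i j => P i j z) * ((Matrix.of fun i j => D (P i j) z) *
        (Matrix.of fun i j => E (P i j) z) -
      (Matrix.of fun i j => E (P i j) z) * (Matrix.of fun i j => D (P i j) z))).trace =
      D (fun y => ∑ k, T k y * E (S k) y) z - E (fun y => ∑ k, T k y * D (S k) y) z := by
  have dS : ∀ k, DifferentiableAt ℝ (S k) z := fun k => (hS k).differentiableAt (by norm_num)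
  have dT : ∀ k, DifferentiableAt ℝ (T k) z := fun k => (hT k).differentiableAt (by norm_num)
  have dDS : ∀ k, DifferentiableAt ℝ (D (S k)) z := fun k =>
    (hD.smooth (m := 1) (hS k) (by norm_num)).differentiableAt (by norm_num)
  have dES : ∀ k, DifferentiableAt ℝ (E (S k)) z := fun k =>
    (hE.smooth (m := 1) (hS k) (by norm_num)).differentiableAt (by norm_num)
  have key : ∀ {F : (C2 → ℂ) → C2 → ℂ}, WD F →
      (Matrix.of fun i j => F (P i j) z) = Matrix.vecMulVec (fun k => F (S k) z) (fun k => T k z) +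
        Matrix.vecMulVec (fun k => S k z) (fun k => F (T k) z) := by
    intro F hF
    ext i j
    simp only [Matrix.of_apply, Matrix.add_apply, Matrix.vecMulVec_apply]
    rw [hF.congr (g := fun y => S i y * T j y) (hP.mono fun y hy => hy i j), hF.mul (dS i) (dT j)]
    ring
  have one : ∀ {F : (C2 → ℂ) → C2 → ℂ}, WD F →
      (fun k => F (T k) z) ⬝ᵥ (fun k => S k z) = -((fun k => T k z) ⬝ᵥ fun k => F (S k) z) := by
    intro F hF
    have h2 : F (fun y => ∑ k, T k y * S k y) z = 0 := by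
      rw [hF.congr (g := fun _ => 1) h1, hF.const]
    rw [hF.sum _ fun k _ => (dT k).fun_mul (dS k)] at h2
    simp only [hF.mul (dT _) (dS _), Finset.sum_add_distrib] at h2
    simp only [dotProduct]
    linear_combination h2
  have hP0 : (Matrix.of fun i j => P i j z) = Matrix.vecMulVec (fun k => S k z) (fun k => T k z) := by
    ext i j
    rw [Matrix.of_apply, Matrix.vecMulVec_apply, hP.self_of_nhds i j]
  rw [hP0, key hD, key hE, tr_alg _ _ _ _ _ _ h1.self_of_nhds (one hD) (one hE),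
    hD.sum _ fun k _ => (dT k).fun_mul (dES k), hE.sum _ fun k _ => (dT k).fun_mul (dDS k)]
  simp only [hD.mul (dT _) (dES _), hE.mul (dT _) (dDS _), Finset.sum_add_distrib, dotProduct]
  have h3 : ∀ k, E (D (S k)) z = D (E (S k)) z := fun k => (hc (hS k)).symm
  simp only [h3]
  ring

end core

end Vale.Agent.P267.H509
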