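import Vale.Agent.P267.H509.CWCurv
import Vale.Agent.P267.H509.CWAlg

/-! P267 / H509 (package RRC-CW, part W2): global form of the curvature with a partition of unity. -/

set_option linter.unusedSectionVars false

open scoped Manifold ContDiff ComplexConjugate Matrix ComplexOrder
open Set Filter Topology

noncomputable section

namespace Vale.Agent.P267.H509

open Vale.Agent.P267.FL

variable {X : Type*} [TopologicalSpace X] [ChartedSpace C2 X]

/-! ### cut-off functions -/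

/-- a smooth (complex valued) partition of unity with supports in the sets `U a` -/
structure PU {I : Type} [Fintype I] (U : I → Set X) (ρ : I → X → ℂ) : Prop where
  isOpen : ∀ a, IsOpen (U a)
  smooth : ∀ a, Reg0 ∞ 0 (ρ a)
  supp : ∀ a, tsupport (ρ a) ⊆ U a
  sum : ∀ x, ∑ a, ρ a x = 1

section cut

variable {ρ : X → ℂ} {U : Set X}

theorem cut_zero (hs : tsupport ρ ⊆ U) {e : Ch X} {x : X} (hx : x ∈ e.source) (hU : x ∉ U) :
    ∀ᶠ z in 𝓝 (e x), ρ (e.symm z) = 0 := by
  have h1 : ∀ᶠ y in 𝓝 x, ρ y = 0 := by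
    have h2 : x ∉ tsupport ρ := fun h => hU (hs h)
    exact notMem_tsupport_iff_eventuallyEq.1 h2
  have h3 : Tendsto e.symm (𝓝 (e x)) (𝓝 x) := by
    have := e.continuousAt_symm (e.map_source hx)
    rwa [ContinuousAt, e.left_inv hx] at this
  exact h3.eventually h1

theorem cut_val (hs : tsupport ρ ⊆ U) {x : X} (hU : x ∉ U) : ρ x = 0 :=
  image_eq_zero_of_notMem_tsupport fun h => hU (hs h)

theorem reg0_contDiffAt (hρ : Reg0 ∞ 0 ρ) {e : Ch X} (he : e ∈ atlas C2 X) {x : X}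
    (hx : x ∈ e.source) : ContDiffAt ℝ ∞ (fun z => ρ (e.symm z)) (e x) := by
  have h1 := (hρ e he).contDiffAt (e.open_target.mem_nhds (e.map_source hx))
  rwa [LB.loc0_zero] at h1

theorem cut_smooth (hρ : Reg0 ∞ 0 ρ) (hs : tsupport ρ ⊆ U) {e : Ch X} (he : e ∈ atlas C2 X) {x : X}
    (hx : x ∈ e.source) {f : C2 → ℂ} (hf : x ∈ U → ContDiffAt ℝ ∞ f (e x)) :
    ContDiffAt ℝ ∞ (fun z => ρ (e.symm z) * f z) (e x) := by
  by_cases hU : x ∈ U
  · exact (reg0_contDiffAt hρ he hx).mul (hf hU)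
  · refine (contDiffAt_const (c := (0 : ℂ))).congr_of_eventuallyEq ?_
    filter_upwards [cut_zero hs hx hU] with z hz
    rw [hz, zero_mul]

theorem cut_D {D : (C2 → ℂ) → C2 → ℂ} (hD : WD D) (hρ : Reg0 ∞ 0 ρ) (hs : tsupport ρ ⊆ U)
    {e : Ch X} (he : e ∈ atlas C2 X) {x : X} (hx : x ∈ e.source) {f : C2 → ℂ}
    (hf : x ∈ U → ContDiffAt ℝ ∞ f (e x)) :
    D (fun z => ρ (e.symm z) * f z) (e x) =
      ρ x * D f (e x) + D (fun z => ρ (e.symm z)) (e x) * f (e x) := by
  by_cases hU : x ∈ U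
  · rw [hD.mul ((reg0_contDiffAt hρ he hx).differentiableAt (by simp))
      ((hf hU).differentiableAt (by simp)), e.left_inv hx]
  · have h1 : (fun z => ρ (e.symm z) * f z) =ᶠ[𝓝 (e x)] fun _ => 0 := by
      filter_upwards [cut_zero hs hx hU] with z hz
      rw [hz, zero_mul]
    have h2 : (fun z => ρ (e.symm z)) =ᶠ[𝓝 (e x)] fun _ => 0 := cut_zero hs hx hU
    rw [hD.congr h1, hD.congr h2, hD.const, cut_val hs hU]
    ring

theorem cut_D0 {D : (C2 → ℂ) → C2 → ℂ} (hD : WD D) (hs : tsupport ρ ⊆ U)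
    {e : Ch X} {x : X} (hx : x ∈ e.source) (hU : x ∉ U) :
    D (fun z => ρ (e.symm z)) (e x) = 0 := by
  have h2 : (fun z => ρ (e.symm z)) =ᶠ[𝓝 (e x)] fun _ => 0 := cut_zero hs hx hU
  rw [hD.congr h2, hD.const]

end cut

section pu

variable {I : Type} [Fintype I] {U : I → Set X} {ρ : I → X → ℂ}

theorem PU.exists_mem (hρ : PU U ρ) (x : X) : ∃ a, x ∈ U a := by
  by_contra h
  simp only [not_exists] at h
  have h1 := hρ.sum x
  rw [Finset.sum_eq_zero fun a _ => cut_val (hρ.supp a) (h a)] at h1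
  exact zero_ne_one h1

theorem PU.sum_D (hρ : PU U ρ) {D : (C2 → ℂ) → C2 → ℂ} (hD : WD D) {e : Ch X}
    (he : e ∈ atlas C2 X) {x : X} (hx : x ∈ e.source) :
    ∑ a, D (fun z => ρ a (e.symm z)) (e x) = 0 := by
  rw [← hD.sum Finset.univ fun a _ =>
    (reg0_contDiffAt (hρ.smooth a) he hx).differentiableAt (by simp)]
  have h1 : (fun z => ∑ a, ρ a (e.symm z)) = fun _ => (1 : ℂ) := by
    funext z; exact hρ.sum _
  rw [h1, hD.const]

/-- glued terms: derivative of `∑ ρ_a f_a` -/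
theorem PU.D_sum (hρ : PU U ρ) {D : (C2 → ℂ) → C2 → ℂ} (hD : WD D) {e : Ch X}
    (he : e ∈ atlas C2 X) {x : X} (hx : x ∈ e.source) {f : I → C2 → ℂ}
    (hf : ∀ a, x ∈ U a → ContDiffAt ℝ ∞ (f a) (e x)) :
    D (fun z => ∑ a, ρ a (e.symm z) * f a z) (e x) =
      ∑ a, ρ a x * D (f a) (e x) + ∑ a, D (fun z => ρ a (e.symm z)) (e x) * f a (e x) := by
  rw [hD.sum Finset.univ fun a _ => (cut_smooth (hρ.smooth a) (hρ.supp a) he hx
    (hf a)).differentiableAt (by simp), ← Finset.sum_add_distrib]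
  exact Finset.sum_congr rfl fun a _ => cut_D hD (hρ.smooth a) (hρ.supp a) he hx (hf a)

end pu

/-! ### the global connection form -/

section glob

variable {ι : Type} [Fintype ι] [DecidableEq ι] {I : Type} [Fintype I]

/-- compatible frames: smooth frames `s a` of `L` on `U a` with holomorphic transition functions
(equivalently: the `(0,1)`-parts of their connection forms agree) -/
structure CFr (L : LB X ι) (U : I → Set X) (s : I → X → EuclideanSpace ℂ ι) : Prop where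
  fr : ∀ a, Fr L (U a) (s a)
  comp : ∀ a b x, x ∈ U a → x ∈ U b → the (s a) x = the (s b) x

/-- `∑ ρ_a ⟨s_a, ds_a⟩ / |s_a|²` -/
def conE (ρ : I → X → ℂ) (s : I → X → EuclideanSpace ℂ ι) : OneF X :=
  ⟨fun x i => ∑ a, ρ a x * gam (s a) x i, fun x i => ∑ a, ρ a x * the (s a) x i⟩

theorem loc10_conE (ρ : I → X → ℂ) (s : I → X → EuclideanSpace ℂ ι) (e : Ch X) (z : C2)
    (i : Fin 2) : loc10 e (conE ρ s).f10 z i = ∑ a, ρ a (e.symm z) * loc10 e (gam (s a)) z i := by
  simp only [loc10, conE, smul_eq_mul, Finset.mul_sum]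
  rw [Finset.sum_comm]
  refine Finset.sum_congr rfl fun a _ => Finset.sum_congr rfl fun p _ => ?_
  ring

theorem loc1_conE (ρ : I → X → ℂ) (s : I → X → EuclideanSpace ℂ ι) (e : Ch X) (z : C2)
    (i : Fin 2) : loc1 0 e (conE ρ s).f01 z i = ∑ a, ρ a (e.symm z) * loc1 0 e (the (s a)) z i := by
  simp only [loc1, conE, smul_eq_mul, Finset.mul_sum, zpow_zero, one_mul]
  rw [Finset.sum_comm]
  refine Finset.sum_congr rfl fun a _ => Finset.sum_congr rfl fun p _ => ?_
  ring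

/-- the `(1,1)`-form `∑ ∂̄ρ_a ∧ γ_a` -/
def Th (ρ : I → X → ℂ) (s : I → X → EuclideanSpace ℂ ι) (x : X) (i j : Fin 2) : ℂ :=
  thet (fun a => gam (s a) x) (fun a => dbar0 0 (ρ a) x) i j

variable [IsManifold 𝓘(ℂ, C2) ω X] {L : LB X ι} {U : I → Set X} {ρ : I → X → ℂ}
  {s : I → X → EuclideanSpace ℂ ι}

theorem conE_smooth (hρ : PU U ρ) (hs : ∀ a, Fr L (U a) (s a)) : (conE ρ s).Smooth := by
  constructor
  · rw [reg10_iff]
    intro x
    have he := chart_mem_atlas C2 x
    have hx := mem_chart_source C2 x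
    rw [contDiffAt_pi]
    intro i
    simp only [loc10_conE]
    refine ContDiffAt.sum fun a _ => cut_smooth (hρ.smooth a) (hρ.supp a) he hx fun hU => ?_
    exact contDiffAt_pi.1 ((hs a).gam_smooth he hx hU) i
  · rw [reg1_iff]
    intro x
    have he := chart_mem_atlas C2 x
    have hx := mem_chart_source C2 x
    rw [contDiffAt_pi]
    intro i
    simp only [loc1_conE]
    refine ContDiffAt.sum fun a _ => cut_smooth (hρ.smooth a) (hρ.supp a) he hx fun hU => ?_
    exact contDiffAt_pi.1 ((hs a).the_smooth he hx hU) i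

theorem sum_the (hρ : PU U ρ) (hs : CFr L U s) {D : (C2 → ℂ) → C2 → ℂ} (hD : WD D) (x : X)
    (j : Fin 2) : ∑ a, D (fun z => ρ a ((chartAt C2 x).symm z)) (chartAt C2 x x) *
      loc1 0 (chartAt C2 x) (the (s a)) (chartAt C2 x x) j = 0 := by
  have he := chart_mem_atlas C2 x
  have hx := mem_chart_source C2 x
  obtain ⟨b, hb⟩ := hρ.exists_mem x
  have h1 : ∀ a, D (fun z => ρ a ((chartAt C2 x).symm z)) (chartAt C2 x x) *
      loc1 0 (chartAt C2 x) (the (s a)) (chartAt C2 x x) j =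
      D (fun z => ρ a ((chartAt C2 x).symm z)) (chartAt C2 x x) * the (s b) x j := by
    intro a
    rw [loc1_chartAt]
    by_cases ha : x ∈ U a
    · rw [hs.comp a b x ha hb]
    · rw [cut_D0 hD (hρ.supp a) hx ha]
      ring
  simp only [h1]
  rw [← Finset.sum_mul, hρ.sum_D hD he hx, zero_mul]

theorem sum_weight (hρ : PU U ρ) {x : X} {f : I → ℂ} {c : ℂ} (hf : ∀ a, x ∈ U a → f a = c) :
    ∑ a, ρ a x * f a = c := by
  have h1 : ∀ a, ρ a x * f a = ρ a x * c := by
    intro a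
    by_cases ha : x ∈ U a
    · rw [hf a ha]
    · rw [cut_val (hρ.supp a) ha]
      ring
  simp only [h1]
  rw [← Finset.sum_mul, hρ.sum, one_mul]

theorem dE_f11 (hρ : PU U ρ) (hs : CFr L U s) (x : X) (i j : Fin 2) :
    (conE ρ s).d.f11 x i j = L.F11 x i j + Th ρ s x i j := by
  have he := chart_mem_atlas C2 x
  have hx := mem_chart_source C2 x
  have h1 : (conE ρ s).d.f11 x i j = dz i (fun z => loc1 0 (chartAt C2 x) (conE ρ s).f01 z j)
      (chartAt C2 x x) + -dzb j (fun z => loc10 (chartAt C2 x) (conE ρ s).f10 z i)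
      (chartAt C2 x x) := rfl
  rw [h1]
  simp only [loc1_conE, loc10_conE]
  rw [hρ.D_sum (wd_dz i) he hx fun a ha => contDiffAt_pi.1 ((hs.fr a).the_smooth he hx ha) j,
    hρ.D_sum (wd_dzb j) he hx fun a ha => contDiffAt_pi.1 ((hs.fr a).gam_smooth he hx ha) i,
    sum_the hρ hs (wd_dz i)]
  have h2 := sum_weight hρ (x := x) (f := fun a =>
    dz i (fun z => loc1 0 (chartAt C2 x) (the (s a)) z j) (chartAt C2 x x) +
      -dzb j (fun z => loc10 (chartAt C2 x) (gam (s a)) z i) (chartAt C2 x x))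
    (c := L.F11 x i j) fun a ha => ((hs.fr a).F11_eq ha i j).symm
  simp only [mul_add, mul_neg, Finset.sum_add_distrib, Finset.sum_neg_distrib] at h2
  have h3 : Th ρ s x i j = -∑ a, dzb j (fun z => ρ a ((chartAt C2 x).symm z)) (chartAt C2 x x) *
      loc10 (chartAt C2 x) (gam (s a)) (chartAt C2 x x) i := by
    simp only [Th, thet, loc10_chartAt, dbar0, LB.loc0_zero]
    congr 1
    refine Finset.sum_congr rfl fun a _ => ?_
    rw [mul_comm]
    rfl
  rw [h3]
  linear_combination h2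

theorem dE_f02 (hρ : PU U ρ) (hs : CFr L U s) (x : X) : (conE ρ s).d.f02 x = L.F02 x := by
  have he := chart_mem_atlas C2 x
  have hx := mem_chart_source C2 x
  have h1 : (conE ρ s).d.f02 x = dzb 0 (fun z => loc1 0 (chartAt C2 x) (conE ρ s).f01 z 1)
      (chartAt C2 x x) - dzb 1 (fun z => loc1 0 (chartAt C2 x) (conE ρ s).f01 z 0)
      (chartAt C2 x x) := rfl
  rw [h1]
  simp only [loc1_conE]
  rw [hρ.D_sum (wd_dzb 0) he hx fun a ha => contDiffAt_pi.1 ((hs.fr a).the_smooth he hx ha) 1,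
    hρ.D_sum (wd_dzb 1) he hx fun a ha => contDiffAt_pi.1 ((hs.fr a).the_smooth he hx ha) 0,
    sum_the hρ hs (wd_dzb 0), sum_the hρ hs (wd_dzb 1)]
  have h2 := sum_weight hρ (x := x) (f := fun a =>
    dzb 0 (fun z => loc1 0 (chartAt C2 x) (the (s a)) z 1) (chartAt C2 x x) -
      dzb 1 (fun z => loc1 0 (chartAt C2 x) (the (s a)) z 0) (chartAt C2 x x))
    (c := L.F02 x) fun a ha => ((hs.fr a).F02_eq ha).symm
  simp only [mul_sub, Finset.sum_sub_distrib] at h2
  linear_combination h2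

/-! ### wedge products -/

/-- difference of two-forms -/
def tsub (F G : TwoF X) : TwoF X := ⟨F.f20 - G.f20, F.f11 - G.f11, F.f02 - G.f02⟩

theorem wedge_tsub (F G F' G' : TwoF X) (x : X) : (tsub F G).wedge (tsub F' G') x =
    F.wedge F' x - F.wedge G' x - F'.wedge G x + G.wedge G' x := by
  simp only [TwoF.wedge, tsub, Pi.sub_apply, Matrix.sub_apply]
  ring

theorem wedge_Th {ι' : Type} [Fintype ι'] [DecidableEq ι'] {L' : LB X ι'}
    {s' : I → X → EuclideanSpace ℂ ι'} (hρ : PU U ρ) (hs : CFr L U s) (hs' : CFr L' U s') (x : X) :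
    wed (Th ρ s x) (Th ρ s' x) = (tsub (conE ρ s).d L.curv).wedge (tsub (conE ρ s').d L'.curv) x := by
  have h1 : ∀ i j, (tsub (conE ρ s).d L.curv).f11 x i j = Th ρ s x i j := by
    intro i j
    have := dE_f11 hρ hs x i j
    simp only [tsub, Pi.sub_apply, Matrix.sub_apply, this, LB.curv]
    ring
  have h2 : ∀ i j, (tsub (conE ρ s').d L'.curv).f11 x i j = Th ρ s' x i j := by
    intro i j
    have := dE_f11 hρ hs' x i j
    simp only [tsub, Pi.sub_apply, Matrix.sub_apply, this, LB.curv]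
    ring
  have h3 : (tsub (conE ρ s).d L.curv).f02 x = 0 := by
    have := dE_f02 hρ hs x
    simp only [tsub, Pi.sub_apply, this, LB.curv]
    ring
  have h4 : (tsub (conE ρ s').d L'.curv).f02 x = 0 := by
    have := dE_f02 hρ hs' x
    simp only [tsub, Pi.sub_apply, this, LB.curv]
    ring
  simp only [TwoF.wedge, h1, h2, h3, h4, wed]
  ring

/-- facts on forms and integration on `X` which are proved elsewhere -/
structure IntH (X : Type*) [TopologicalSpace X] [ChartedSpace C2 X] : Prop where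
  wedge : ∀ F G : TwoF X, F.Smooth → G.Smooth → Reg2 ∞ 1 (F.wedge G)
  d_smooth : ∀ A : OneF X, A.Smooth → A.d.Smooth
  d_closed : ∀ A : OneF X, A.Smooth → A.d.Closed
  curv_smooth : ∀ {ι : Type} [Fintype ι] [DecidableEq ι] (L : LB X ι), L.curv.Smooth
  curv_closed : ∀ {ι : Type} [Fintype ι] [DecidableEq ι] (L : LB X ι), L.curv.Closed
  sub : ∀ b b' : X → ℂ, Reg2 ∞ 1 b → Reg2 ∞ 1 b' → intX (b - b') = intX b - intX b'
  add : ∀ b b' : X → ℂ, Reg2 ∞ 1 b → Reg2 ∞ 1 b' → intX (b + b') = intX b + intX b'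
  stokes : ∀ (A : OneF X) (F : TwoF X), A.Smooth → F.Smooth → F.Closed →
    intX (A.d.wedge F) = 0

theorem Reg2.sub {b b' : X → ℂ} (h : Reg2 ∞ 1 b) (h' : Reg2 ∞ 1 b') : Reg2 ∞ 1 (b - b') := by
  intro e he
  refine ((h e he).sub (h' e he)).congr fun z _ => ?_
  simp only [loc2, Pi.sub_apply, smul_eq_mul]
  ring

/-- **W2**: `∫ Θ ∧ Θ' = ∫ curv L ∧ curv L'`. -/
theorem int_Th (H : IntH X) {ι' : Type} [Fintype ι'] [DecidableEq ι'] {L' : LB X ι'}
    {s' : I → X → EuclideanSpace ℂ ι'} (hρ : PU U ρ) (hs : CFr L U s) (hs' : CFr L' U s') :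
    intX (fun x => wed (Th ρ s x) (Th ρ s' x)) = intX (L.curv.wedge L'.curv) := by
  have hE := conE_smooth hρ hs.fr
  have hE' := conE_smooth hρ hs'.fr
  have h1 : (fun x => wed (Th ρ s x) (Th ρ s' x)) =
      ((conE ρ s).d.wedge (conE ρ s').d - (conE ρ s).d.wedge L'.curv) -
        (conE ρ s').d.wedge L.curv + L.curv.wedge L'.curv := by
    funext x
    rw [wedge_Th hρ hs hs' x, wedge_tsub]
    simp only [Pi.add_apply, Pi.sub_apply]
  have r1 := H.wedge _ _ (H.d_smooth _ hE) (H.d_smooth _ hE')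
  have r2 := H.wedge _ _ (H.d_smooth _ hE) (H.curv_smooth L')
  have r3 := H.wedge _ _ (H.d_smooth _ hE') (H.curv_smooth L)
  have r4 := H.wedge _ _ (H.curv_smooth L) (H.curv_smooth L')
  rw [h1, H.add _ _ (Reg2.sub (Reg2.sub r1 r2) r3) r4, H.sub _ _ (Reg2.sub r1 r2) r3,
    H.sub _ _ r1 r2, H.stokes _ _ hE (H.d_smooth _ hE') (H.d_closed _ hE'),
    H.stokes _ _ hE (H.curv_smooth L') (H.curv_closed L'),
    H.stokes _ _ hE' (H.curv_smooth L) (H.curv_closed L)]
  ring

end glob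

end Vale.Agent.P267.H509
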