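import Vale.Agent.P267.H509.CWFinal
import Vale.Agent.P267.H533.Stokes

/-! P267 / H509 (package RRC-CW, part W3): integrated form. -/

set_option linter.unusedSectionVars false

open scoped Manifold ContDiff ComplexConjugate Matrix ComplexOrder
open Set Filter Topology MeasureTheory

noncomputable section

namespace Vale.Agent.P267.H509

open Vale.Agent.P267.FL Vale.Agent.P267.RR

/-! ### continuity of the density -/

theorem continuousAt_cov {n : ℕ} {A : C2 → Matrix (Fin n) (Fin n) ℂ} {z : C2}
    (hA : ∀ p q, ContDiffAt ℝ 1 (fun w => A w p q) z) (h0 : (A z).det ≠ 0) :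
    ContinuousAt (cov A) z := by
  have h1 : ContinuousAt A z := by
    refine continuousAt_pi.2 fun p => continuousAt_pi.2 fun q => (hA p q).continuousAt
  have h2 : ContinuousAt (fun w => (A w).det) z :=
    (Continuous.matrix_det continuous_id).continuousAt.comp h1
  have h3 : ContinuousAt (fun w => (A w).adjugate) z :=
    (Continuous.matrix_adjugate continuous_id).continuousAt.comp h1
  have h4 : ContinuousAt (fun w => (A w)⁻¹) z := by
    have : (fun w => (A w)⁻¹) = fun w => ((A w).det)⁻¹ • (A w).adjugate := by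
      funext w
      rw [Matrix.inv_def, Ring.inverse_eq_inv']
    rw [this]
    exact (h2.inv₀ h0).smul h3
  rw [continuousAt_pi]
  intro i
  have h5 : ContinuousAt (fun w => (Matrix.of fun p q => dz i (fun v => A v p q) w)) z := by
    refine continuousAt_pi.2 fun p => continuousAt_pi.2 fun q => ?_
    exact (contDiffAt_dz (m := 0) (hA p q) (by simp) i).continuousAt
  exact h4.mul h5

theorem continuous_Rd (r : ℕ) : Continuous fun p : (MCov 2 × MCov 2) × (MCov r × MCov r) =>
    Rd r p.1.1 p.1.2 p.2.1 p.2.2 := by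
  have t : ∀ {m : ℕ} (i : Fin 2), Continuous fun x : MCov m => (x i).trace := fun i =>
    (continuous_apply i).matrix_trace
  have m : ∀ {m : ℕ} (i j : Fin 2), Continuous fun p : MCov m × MCov m => (p.1 i * p.2 j).trace :=
    fun i j => (((continuous_apply i).comp continuous_fst).mul
      ((continuous_apply j).comp continuous_snd)).matrix_trace
  simp only [Rd, w2, tc, tw, Matrix.trace_sub]
  have a1 : ∀ i, Continuous fun p : (MCov 2 × MCov 2) × (MCov r × MCov r) => (p.1.1 i).trace :=
    fun i => (t i).comp (continuous_fst.comp continuous_fst)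
  have a2 : ∀ i, Continuous fun p : (MCov 2 × MCov 2) × (MCov r × MCov r) => (p.1.2 i).trace :=
    fun i => (t i).comp (continuous_snd.comp continuous_fst)
  have a3 : ∀ i, Continuous fun p : (MCov 2 × MCov 2) × (MCov r × MCov r) => (p.2.1 i).trace :=
    fun i => (t i).comp (continuous_fst.comp continuous_snd)
  have a4 : ∀ i, Continuous fun p : (MCov 2 × MCov 2) × (MCov r × MCov r) => (p.2.2 i).trace :=
    fun i => (t i).comp (continuous_snd.comp continuous_snd)
  have b1 : ∀ i j, Continuous fun p : (MCov 2 × MCov 2) × (MCov r × MCov r) =>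
      (p.1.1 i * p.1.2 j).trace := fun i j => (m i j).comp continuous_fst
  have b2 : ∀ i j, Continuous fun p : (MCov 2 × MCov 2) × (MCov r × MCov r) =>
      (p.2.1 i * p.2.2 j).trace := fun i j => (m i j).comp continuous_snd
  refine ((continuous_const.mul ((continuous_const.mul
    (((a1 0).mul (a2 1)).sub ((a1 1).mul (a2 0)))).sub
    (continuous_const.mul ((b1 0 1).sub (b1 1 0))))).add (continuous_const.mul
      ((((a1 0).mul (a4 1)).sub ((a1 1).mul (a4 0))).add
        (((a3 0).mul (a2 1)).sub ((a3 1).mul (a2 0)))))).add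
    (continuous_const.mul ((b2 0 1).sub (b2 1 0)))

variable {X : Type*} [TopologicalSpace X] [ChartedSpace C2 X] [IsManifold 𝓘(ℂ, C2) ω X]
variable {I : Type} [Fintype I] {ι : Type} [Fintype ι] [DecidableEq ι] {ι' : Type} [Fintype ι']
  [DecidableEq ι']

/-- regularity of a cocycle of matrices -/
structure RegC {r : ℕ} (e : I → Ch X) (U : I → Set X) (E : I → I → C2 → Matrix (Fin r) (Fin r) ℂ) :
    Prop where
  c1 : ∀ a b, ∀ x ∈ U a ∩ U b, ∀ p q, ContDiffAt ℝ 1 (fun w => E a b w p q) (e a x)
  det : ∀ a b, ∀ x ∈ U a ∩ U b, (E a b (e a x)).det ≠ 0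

theorem regC_J {e : I → Ch X} {U : I → Set X} (he : ∀ a, e a ∈ atlas C2 X)
    (hU : ∀ a, U a ⊆ (e a).source) : RegC e U fun a b => Jc (e a) (e b) where
  c1 a b _ hx p q := ((jacM_analyticAt (he a) (he b) (hU a hx.1) (hU b hx.2) p q).contDiffAt
    (n := 1)).restrict_scalars ℝ
  det a b _ hx := (Jc_det (he a) (he b) (hU a hx.1) (hU b hx.2)).self_of_nhds

theorem regC_O {e : I → Ch X} {U : I → Set X} (he : ∀ a, e a ∈ atlas C2 X)
    (hU : ∀ a, U a ⊆ (e a).source) : RegC e U fun a b => Oc (e a) (e b) where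
  c1 a b x hx p q := ((Jc_inv_analytic (he a) (he b) (hU a hx.1) (hU b hx.2) q p).contDiffAt
    (n := 1)).restrict_scalars ℝ
  det a b x hx := by
    have h := (Jc_det (he a) (he b) (hU a hx.1) (hU b hx.2)).self_of_nhds
    rw [Oc, Matrix.det_transpose, Matrix.det_nonsing_inv, Ring.inverse_eq_inv']
    exact inv_ne_zero h

theorem regC_one {r : ℕ} {e : I → Ch X} {U : I → Set X} :
    RegC e U fun _ _ _ => (1 : Matrix (Fin r) (Fin r) ℂ) where
  c1 _ _ _ _ _ _ := contDiffAt_const
  det _ _ _ _ := by simp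

section int

variable {e : I → Ch X} {U : I → Set X} {ρ : I → X → ℝ}

/-- the integrand -/
def integrand {r : ℕ} (e : I → Ch X) (ρ : I → X → ℝ) (E : I → I → C2 → Matrix (Fin r) (Fin r) ℂ)
    (a : I) (z : C2) : ℂ :=
  (4 * (ρ a ((e a).symm z) : ℂ)) *
    dens (fun b x => (ρ b x : ℂ)) (e a) (fun b => Jc (e a) (e b)) (E a) z

/-- `χ` of the bundle with cocycle `E`, as given by the density -/
def chiI {r : ℕ} (e : I → Ch X) (ρ : I → X → ℝ) (E : I → I → C2 → Matrix (Fin r) (Fin r) ℂ) : ℂ :=
  1 / (4 * (Real.pi : ℂ) ^ 2) * ∑ a, ∫ z in (e a).target, integrand e ρ E a z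

theorem dbl_continuousAt (hρ : PU U fun b x => (ρ b x : ℂ)) {e : Ch X} (he : e ∈ atlas C2 X) {x : X}
    (hx : x ∈ e.source) (b : I) : ContinuousAt (fun z => dbl (fun b x => (ρ b x : ℂ)) e z b) (e x) := by
  rw [continuousAt_pi]
  intro j
  exact (contDiffAt_dzb (m := 0) (reg0_contDiffAt (hρ.smooth b) he hx) (by simp) j).continuousAt

theorem dbl_eventually (hρ : PU U fun b x => (ρ b x : ℂ)) {e : Ch X} {x : X}
    (hx : x ∈ e.source) {b : I} (hb : x ∉ U b) :
    ∀ᶠ z in 𝓝 (e x), dbl (fun b x => (ρ b x : ℂ)) e z b = 0 := by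
  have h1 := (cut_zero (hρ.supp b) hx hb).eventually_nhds
  filter_upwards [h1] with z hz
  funext j
  have h2 : (fun w => (ρ b (e.symm w) : ℂ)) =ᶠ[𝓝 z] fun _ => 0 := hz
  rw [dbl, dzb_congr h2, (wd_dzb j).const]
  rfl

theorem integrand_continuousAt {r : ℕ} (hρ : PU U fun b x => (ρ b x : ℂ))
    (he : ∀ a, e a ∈ atlas C2 X) (hU : ∀ a, U a ⊆ (e a).source)
    {E : I → I → C2 → Matrix (Fin r) (Fin r) ℂ} (hE : RegC e U E) (a : I) {x : X}
    (hx : x ∈ (e a).source) : ContinuousAt (integrand e ρ E a) (e a x) := by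
  by_cases ha : x ∈ U a
  · unfold integrand dens
    refine ContinuousAt.mul ?_ ?_
    · exact continuousAt_const.mul (reg0_contDiffAt (hρ.smooth a) (he a) hx).continuousAt
    · refine tendsto_finsetSum _ fun b _ => tendsto_finsetSum _ fun c _ => ?_
      change ContinuousAt (fun z => w2 (dbl (fun b x => (ρ b x : ℂ)) (e a) z b)
        (dbl (fun b x => (ρ b x : ℂ)) (e a) z c) * _) (e a x)
      by_cases hb : x ∈ U b
      · by_cases hc : x ∈ U c
        · have l1 := dbl_continuousAt hρ (he a) hx b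
          have l2 := dbl_continuousAt hρ (he a) hx c
          have j := regC_J he hU
          have c1 := continuousAt_cov (j.c1 a b x ⟨ha, hb⟩) (j.det a b x ⟨ha, hb⟩)
          have c2 := continuousAt_cov (j.c1 a c x ⟨ha, hc⟩) (j.det a c x ⟨ha, hc⟩)
          have c3 := continuousAt_cov (hE.c1 a b x ⟨ha, hb⟩) (hE.det a b x ⟨ha, hb⟩)
          have c4 := continuousAt_cov (hE.c1 a c x ⟨ha, hc⟩) (hE.det a c x ⟨ha, hc⟩)
          refine ContinuousAt.mul ?_ ?_
          · simp only [w2]
            have l10 := continuousAt_pi.1 l1 0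
            have l11 := continuousAt_pi.1 l1 1
            have l20 := continuousAt_pi.1 l2 0
            have l21 := continuousAt_pi.1 l2 1
            exact (l10.mul l21).sub (l11.mul l20)
          · exact ContinuousAt.comp (f := fun z => ((cov (Jc (e a) (e b)) z, cov (Jc (e a) (e c)) z),
              (cov (E a b) z, cov (E a c) z)))
              (g := fun p : (MCov 2 × MCov 2) × (MCov r × MCov r) => Rd r p.1.1 p.1.2 p.2.1 p.2.2)
              (continuous_Rd r).continuousAt ((c1.prodMk c2).prodMk (c3.prodMk c4))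
        · refine (continuousAt_const (y := (0 : ℂ))).congr ?_
          filter_upwards [dbl_eventually hρ hx hc] with z hz
          rw [hz]
          simp [w2]
      · refine (continuousAt_const (y := (0 : ℂ))).congr ?_
        filter_upwards [dbl_eventually hρ hx hb] with z hz
        rw [hz]
        simp [w2]
  · refine (continuousAt_const (y := (0 : ℂ))).congr ?_
    filter_upwards [cut_zero (hρ.supp a) hx ha] with z hz
    rw [integrand, hz]
    simp

variable [T2Space X] [CompactSpace X]

theorem integrand_integrable {r : ℕ} (hρ : PU U fun b x => (ρ b x : ℂ))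
    (he : ∀ a, e a ∈ atlas C2 X) (hU : ∀ a, U a ⊆ (e a).source)
    {E : I → I → C2 → Matrix (Fin r) (Fin r) ℂ} (hE : RegC e U E) (a : I) :
    IntegrableOn (integrand e ρ E a) (e a).target := by
  have hs : tsupport (ρ a) ⊆ (e a).source := by
    intro x hx
    refine hU a (hρ.supp a ?_)
    have h1 : Function.support (ρ a) = Function.support fun x => (ρ a x : ℂ) := by
      ext y; simp
    rw [tsupport, ← h1]
    exact hx
  have hK := H533.isCompact_image_tsupport (e := e a) (w := ρ a)
    (HasCompactSupport.of_compactSpace _) hs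
  refine H533.integrableOn_of_cont (e a).open_target hK ?_ ?_ ?_
  · rintro _ ⟨x, hx, rfl⟩
    exact (e a).map_source (hs hx)
  · intro z hz
    have := integrand_continuousAt hρ he hU hE a ((e a).map_target hz)
    rw [(e a).right_inv hz] at this
    exact this.continuousWithinAt
  · intro z hz hzK
    have h0 : ρ a ((e a).symm z) = 0 := by
      by_contra hne
      exact hzK ⟨(e a).symm z, subset_tsupport _ hne, (e a).right_inv hz⟩
    rw [integrand, h0]
    simp

/-- the integral of a smooth form, with the given partition -/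
theorem sum_piece (hρ : PU U fun b x => (ρ b x : ℂ))
    (he : ∀ a, e a ∈ atlas C2 X) (hU : ∀ a, U a ⊆ (e a).source) {b : X → ℂ} (hb : Reg2 ∞ 1 b) :
    ∑ a, ∫ z in (e a).target, (4 * (ρ a ((e a).symm z) : ℂ)) * loc2 1 (e a) b z = intX b := by
  have h1 := H533.hasInt_intX (b := b) (Reg2.locInt hb) (HasCompactSupport.of_compactSpace _)
  have hs : ∀ a, tsupport (ρ a) ⊆ (e a).source := by
    intro a x hx
    refine hU a (hρ.supp a ?_)
    have h1 : Function.support (ρ a) = Function.support fun x => (ρ a x : ℂ) := by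
      ext y; simp
    rw [tsupport, ← h1]
    exact hx
  have hc : ∀ a, Continuous (ρ a) := by
    intro a
    have h2 : Continuous fun x => (ρ a x : ℂ) := by
      rw [continuous_iff_continuousAt]
      intro x
      have h3 := (reg0_contDiffAt (hρ.smooth a) (chart_mem_atlas C2 x)
        (mem_chart_source C2 x)).continuousAt
      have h4 : ContinuousAt (fun y => (ρ a ((chartAt C2 x).symm (chartAt C2 x y)) : ℂ)) x :=
        ContinuousAt.comp (f := chartAt C2 x) h3
          ((chartAt C2 x).continuousAt (mem_chart_source C2 x))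
      refine h4.congr ?_
      filter_upwards [(chartAt C2 x).open_source.mem_nhds (mem_chart_source C2 x)] with y hy
      rw [(chartAt C2 x).left_inv hy]
    have h5 := Complex.continuous_re.comp h2
    exact h5
  let φ := Fintype.equivFin I
  have h2 := h1 (Fintype.card I) (fun i => e (φ.symm i)) (fun i => ρ (φ.symm i))
    (fun i => he _) (fun i => hc _) (fun i => HasCompactSupport.of_compactSpace _) (fun i => hs _)
    (fun x _ => by
      have h3 := hρ.sum x
      have h4 : ((∑ a, ρ a x : ℝ) : ℂ) = 1 := by rw [← h3]; push_cast; rfl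
      have h5 : ∑ a, ρ a x = 1 := by exact_mod_cast h4
      rw [← h5]
      exact Equiv.sum_comp φ.symm fun a => ρ a x)
  rw [← h2]
  exact (Equiv.sum_comp φ.symm fun a => ∫ z in (e a).target,
    (4 * (ρ a ((e a).symm z) : ℂ)) * loc2 1 (e a) b z).symm

theorem smooth_Th (H : IntH X) (hρ : PU U fun b x => (ρ b x : ℂ)) {L : LB X ι} {L' : LB X ι'}
    {s : I → X → EuclideanSpace ℂ ι} {s' : I → X → EuclideanSpace ℂ ι'} (hs : CFr L U s)
    (hs' : CFr L' U s') :
    Reg2 ∞ 1 fun x => wed (Th (fun b x => (ρ b x : ℂ)) s x) (Th (fun b x => (ρ b x : ℂ)) s' x) := by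
  have hE := conE_smooth hρ hs.fr
  have hE' := conE_smooth hρ hs'.fr
  have h1 : (fun x => wed (Th (fun b x => (ρ b x : ℂ)) s x) (Th (fun b x => (ρ b x : ℂ)) s' x)) =
      fun x => (tsub (conE (fun b x => (ρ b x : ℂ)) s).d L.curv).wedge
        (tsub (conE (fun b x => (ρ b x : ℂ)) s').d L'.curv) x := by
    funext x
    rw [wedge_Th hρ hs hs' x]
  rw [h1]
  have hsub : ∀ F G : TwoF X, F.Smooth → G.Smooth → (tsub F G).Smooth := by
    intro F G hF hG
    constructor
    · intro e he
      refine ((hF.s20 e he).sub (hG.s20 e he)).congr fun z _ => ?_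
      simp only [loc0, tsub, Pi.sub_apply, smul_eq_mul]
      ring
    · intro e he i j
      refine ((hF.s11 e he i j).sub (hG.s11 e he i j)).congr fun z _ => ?_
      simp only [loc11, tsub, Pi.sub_apply, Matrix.sub_apply, Matrix.of_apply, smul_eq_mul,
        Fin.sum_univ_two]
      ring
    · intro e he
      refine ((hF.s02 e he).sub (hG.s02 e he)).congr fun z _ => ?_
      simp only [loc2, tsub, Pi.sub_apply, smul_eq_mul]
      ring
  exact H.wedge _ _ (hsub _ _ (H.d_smooth _ hE) (H.curv_smooth L))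
    (hsub _ _ (H.d_smooth _ hE') (H.curv_smooth L'))

theorem integral_split {f g h : I → C2 → ℂ} (hρ : PU U fun b x => (ρ b x : ℂ))
    (hfg : ∀ a, ∀ z ∈ (e a).target, f a z = (4 * (ρ a ((e a).symm z) : ℂ)) * g a z)
    (hgh : ∀ a, ∀ x ∈ U a, g a (e a x) = h a (e a x)) (a : I) :
    ∫ z in (e a).target, f a z = ∫ z in (e a).target, (4 * (ρ a ((e a).symm z) : ℂ)) * h a z := by
  refine setIntegral_congr_fun (e a).open_target.measurableSet fun z hz => ?_
  rw [hfg a z hz]
  by_cases hU : (e a).symm z ∈ U a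
  · have := hgh a _ hU
    rw [(e a).right_inv hz] at this
    rw [this]
  · have h0 : (ρ a ((e a).symm z) : ℂ) = 0 := cut_val (hρ.supp a) hU
    rw [h0]
    ring

variable {LK : LB X ι'} {σ : X → EuclideanSpace ℂ ι'}

/-- **NOETHER**: `K·K = 10 χ(𝒪) + χ(Ω¹)` -/
theorem noether_int (H : IntH X) (hρ : PU U fun b x => (ρ b x : ℂ)) (h1 : Reg0 ∞ (-1) σ)
    (h2 : LK.Sec σ) (h3 : ∀ x, σ x ≠ 0) (he : ∀ a, e a ∈ atlas C2 X)
    (hU : ∀ a, U a ⊆ (e a).source) :
    isec LK LK = 10 * chiI e ρ (fun _ _ _ => (1 : Matrix (Fin 1) (Fin 1) ℂ)) +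
      chiI e ρ fun a b => Oc (e a) (e b) := by
  have hK : CFr LK U fun a => kfr σ (e a) := CFr.kfr h1 h2 h3 he hρ.isOpen hU
  set ρc : I → X → ℂ := fun b x => (ρ b x : ℂ) with hρc
  set b : X → ℂ := fun x => wed (Th ρc (fun a => kfr σ (e a)) x) (Th ρc (fun a => kfr σ (e a)) x)
    with hb
  have hbs : Reg2 ∞ 1 b := smooth_Th H hρ hK hK
  have hint : intX b = intX (LK.curv.wedge LK.curv) := int_Th H hρ hK hK
  have i1 := fun a => integrand_integrable hρ he hU (regC_one (r := 1) (e := e) (U := U)) a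
  have i2 := fun a => integrand_integrable hρ he hU (regC_O he hU) a
  have key : ∀ a, 10 * (∫ z in (e a).target,
      integrand e ρ (fun _ _ _ => (1 : Matrix (Fin 1) (Fin 1) ℂ)) a z) +
      ∫ z in (e a).target, integrand e ρ (fun a b => Oc (e a) (e b)) a z =
      -∫ z in (e a).target, (4 * (ρ a ((e a).symm z) : ℂ)) * loc2 1 (e a) b z := by
    intro a
    rw [← integral_const_mul, ← integral_add ((i1 a).const_mul 10) (i2 a), ← integral_neg]
    refine (integral_split (e := e) (U := U) (ρ := ρ) (g := fun a z =>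
      10 * dens ρc (e a) (fun b => Jc (e a) (e b)) (fun _ _ => (1 : Matrix (Fin 1) (Fin 1) ℂ)) z +
        dens ρc (e a) (fun b => Jc (e a) (e b)) (fun b => Oc (e a) (e b)) z)
      (h := fun a z => -loc2 1 (e a) b z) (f := fun a z =>
        10 * integrand e ρ (fun _ _ _ => (1 : Matrix (Fin 1) (Fin 1) ℂ)) a z +
          integrand e ρ (fun a b => Oc (e a) (e b)) a z) hρ ?_ ?_ a).trans ?_
    · intro a z _
      simp only [integrand, ← hρc]
      ring
    · intro a x hx
      exact dens_noether hρ h1 h2 h3 he hU a hx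
    · refine integral_congr_ae (Eventually.of_forall fun z => ?_)
      simp only [mul_neg]
  have hsum := Finset.sum_congr (rfl : (Finset.univ : Finset I) = Finset.univ) fun a _ => key a
  rw [Finset.sum_add_distrib, ← Finset.mul_sum, Finset.sum_neg_distrib,
    sum_piece hρ he hU hbs, hint] at hsum
  rw [isec, chiI, chiI]
  linear_combination -(1 / (4 * (Real.pi : ℂ) ^ 2)) * hsum

/-- **RIEMANN-ROCH**: `χ(L) - χ(𝒪) = (L·L - L·K) / 2` -/
theorem rr_int (H : IntH X) (hρ : PU U fun b x => (ρ b x : ℂ)) (h1 : Reg0 ∞ (-1) σ)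
    (h2 : LK.Sec σ) (h3 : ∀ x, σ x ≠ 0) (he : ∀ a, e a ∈ atlas C2 X)
    (hU : ∀ a, U a ⊆ (e a).source) {L : LB X ι} {s : I → X → EuclideanSpace ℂ ι}
    {E : I → I → C2 → Matrix (Fin 1) (Fin 1) ℂ} (hs : CFr L U s) (hE : Trans e U s E)
    (hEr : RegC e U E) :
    chiI e ρ E = chiI e ρ (fun _ _ _ => (1 : Matrix (Fin 1) (Fin 1) ℂ)) +
      (isec L L - isec L LK) / 2 := by
  have hK : CFr LK U fun a => kfr σ (e a) := CFr.kfr h1 h2 h3 he hρ.isOpen hU
  set ρc : I → X → ℂ := fun b x => (ρ b x : ℂ) with hρc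
  set b : X → ℂ := fun x => wed (Th ρc (fun a => kfr σ (e a)) x) (Th ρc s x) with hb
  set b' : X → ℂ := fun x => wed (Th ρc s x) (Th ρc s x) with hb'
  have hbs : Reg2 ∞ 1 b := smooth_Th H hρ hK hs
  have hbs' : Reg2 ∞ 1 b' := smooth_Th H hρ hs hs
  have hint : intX b = intX (LK.curv.wedge L.curv) := int_Th H hρ hK hs
  have hint' : intX b' = intX (L.curv.wedge L.curv) := int_Th H hρ hs hs
  have hsym : LK.curv.wedge L.curv = L.curv.wedge LK.curv := by
    funext x
    simp only [TwoF.wedge]
    ring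
  have i1 := fun a => integrand_integrable hρ he hU hEr a
  have i2 := fun a => integrand_integrable hρ he hU (regC_one (r := 1) (e := e) (U := U)) a
  have hbsub : Reg2 ∞ 1 (b - b') := Reg2.sub hbs hbs'
  have hsub : intX (b - b') = intX b - intX b' := H.sub _ _ hbs hbs'
  have key : ∀ a, (∫ z in (e a).target, integrand e ρ E a z) -
      (∫ z in (e a).target, integrand e ρ (fun _ _ _ => (1 : Matrix (Fin 1) (Fin 1) ℂ)) a z) =
      1 / 2 * ∫ z in (e a).target, (4 * (ρ a ((e a).symm z) : ℂ)) * loc2 1 (e a) (b - b') z := by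
    intro a
    rw [← integral_sub (i1 a) (i2 a), ← integral_const_mul]
    refine (integral_split (e := e) (U := U) (ρ := ρ) (g := fun a z =>
      dens ρc (e a) (fun b => Jc (e a) (e b)) (E a) z -
      dens ρc (e a) (fun b => Jc (e a) (e b)) (fun _ _ => (1 : Matrix (Fin 1) (Fin 1) ℂ)) z)
      (h := fun a z => 1 / 2 * loc2 1 (e a) b z - 1 / 2 * loc2 1 (e a) b' z) (f := fun a z =>
        integrand e ρ E a z - integrand e ρ (fun _ _ _ => (1 : Matrix (Fin 1) (Fin 1) ℂ)) a z)
      hρ ?_ ?_ a).trans ?_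
    · intro a z _
      simp only [integrand, ← hρc]
      ring
    · intro a x hx
      exact dens_rr hρ h1 h2 h3 he hU hs.fr hE a hx
    · refine integral_congr_ae (Eventually.of_forall fun z => ?_)
      simp only [loc2, Pi.sub_apply, smul_eq_mul]
      ring
  have hsum := Finset.sum_congr (rfl : (Finset.univ : Finset I) = Finset.univ) fun a _ => key a
  rw [Finset.sum_sub_distrib, ← Finset.mul_sum, sum_piece hρ he hU hbsub, hsub, hint, hint',
    hsym] at hsum
  rw [isec, isec, chiI, chiI]
  linear_combination (1 / (4 * (Real.pi : ℂ) ^ 2)) * hsum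

end int

end Vale.Agent.P267.H509
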