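import Vale.Agent.P267.H509.CWGlob

/-! P267 / H509 (package RRC-CW, part W2): change of frame; holomorphic frames; the frames of the
canonical bundle. -/

set_option linter.unusedSectionVars false

open scoped Manifold ContDiff ComplexConjugate Matrix ComplexOrder
open Set Filter Topology

noncomputable section

namespace Vale.Agent.P267.H509

open Vale.Agent.P267.FL

variable {X : Type*} [TopologicalSpace X] [ChartedSpace C2 X] [IsManifold 𝓘(ℂ, C2) ω X]
variable {ι : Type} [Fintype ι] [DecidableEq ι]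

theorem Fr.mono {L : LB X ι} {U V : Set X} {s : X → EuclideanSpace ℂ ι} (h : Fr L U s)
    (hV : IsOpen V) (hVU : V ⊆ U) : Fr L V s where
  isOpen := hV
  smooth x hx := h.smooth x (hVU hx)
  sec x hx := h.sec x (hVU hx)
  ne x hx := h.ne x (hVU hx)

/-- change of frame for `T = s^* / |s|²` -/
theorem Ts_smul {s s' : X → EuclideanSpace ℂ ι} {x : X} {c : ℂ} (hc : c ≠ 0)
    (h : s' x = c • s x) (k : ι) : Ts s' x k = Ts s x k / c := by
  have hcc : conj c ≠ 0 := by simpa using hc
  have h1 : ∀ j, s' x j = c * s x j := fun j => by rw [h]; rfl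
  have h2 : ∑ j, conj (s' x j) * s' x j = conj c * c * ∑ j, conj (s x j) * s x j := by
    rw [Finset.mul_sum]
    refine Finset.sum_congr rfl fun j _ => ?_
    rw [h1, map_mul]
    ring
  rw [Ts, Ts, h2, h1, map_mul]
  by_cases h0 : ∑ j, conj (s x j) * s x j = 0
  · rw [h0]; simp
  · field_simp

/-- change of frame, one Wirtinger operator -/
theorem trans_D {L : LB X ι} {U : Set X} {s s' : X → EuclideanSpace ℂ ι} (h : Fr L U s)
    {D : (C2 → ℂ) → C2 → ℂ} (hD : WD D) {e : Ch X} (he : e ∈ atlas C2 X) {x : X}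
    (hx : x ∈ e.source) (hU : x ∈ U) {g : X → ℂ}
    (hg : DifferentiableAt ℝ (fun z => g (e.symm z)) (e x)) (hg0 : g x ≠ 0)
    (hgs : ∀ᶠ y in 𝓝 x, s' y = g y • s y) :
    ∑ k, Ts s' x k * D (fun z => s' (e.symm z) k) (e x) =
      ∑ k, Ts s x k * D (fun z => s (e.symm z) k) (e x) + D (fun z => g (e.symm z)) (e x) / g x := by
  have h3 : Tendsto e.symm (𝓝 (e x)) (𝓝 x) := by
    have := e.continuousAt_symm (e.map_source hx)
    rwa [ContinuousAt, e.left_inv hx] at this
  have h1 : ∀ k, D (fun z => s' (e.symm z) k) (e x) =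
      g x * D (fun z => s (e.symm z) k) (e x) + D (fun z => g (e.symm z)) (e x) * s x k := by
    intro k
    have h2 : (fun z => s' (e.symm z) k) =ᶠ[𝓝 (e x)] fun z => g (e.symm z) * s (e.symm z) k := by
      filter_upwards [h3.eventually hgs] with z hz
      rw [hz]; rfl
    rw [hD.congr h2, hD.mul hg ((h.contDiffAt he hx hU k).differentiableAt (by simp)),
      e.left_inv hx]
  have h4 := h.Ts_mul hU
  simp only [h1, Ts_smul hg0 hgs.self_of_nhds]
  have h5 : ∀ k, Ts s x k / g x * (g x * D (fun z => s (e.symm z) k) (e x) +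
      D (fun z => g (e.symm z)) (e x) * s x k) = Ts s x k * D (fun z => s (e.symm z) k) (e x) +
      Ts s x k * s x k * (D (fun z => g (e.symm z)) (e x) / g x) := by
    intro k
    field_simp
  simp only [h5, Finset.sum_add_distrib, ← Finset.sum_mul, h4]
  ring

/-- change of frame, `(1,0)`-part, in a chart -/
theorem loc10_gam_trans {L : LB X ι} {U U' : Set X} {s s' : X → EuclideanSpace ℂ ι} (h : Fr L U s)
    (h' : Fr L U' s') {e : Ch X} (he : e ∈ atlas C2 X) {x : X} (hx : x ∈ e.source) (hU : x ∈ U)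
    (hU' : x ∈ U') {g : X → ℂ} (hg : DifferentiableAt ℝ (fun z => g (e.symm z)) (e x))
    (hg0 : g x ≠ 0) (hgs : ∀ᶠ y in 𝓝 x, s' y = g y • s y) (i : Fin 2) :
    loc10 e (gam s') (e x) i = loc10 e (gam s) (e x) i + dz i (fun z => g (e.symm z)) (e x) / g x := by
  rw [h.loc10_gam he hx hU i, h'.loc10_gam he hx hU' i, trans_D h (wd_dz i) he hx hU hg hg0 hgs]

/-- change of frame with a holomorphic transition function: the `(0,1)`-parts agree -/
theorem the_trans {L : LB X ι} {U U' : Set X} {s s' : X → EuclideanSpace ℂ ι} (h : Fr L U s)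
    (h' : Fr L U' s') {x : X} (hU : x ∈ U) (hU' : x ∈ U') {g : X → ℂ} {e : Ch X}
    (he : e ∈ atlas C2 X) (hx : x ∈ e.source)
    (hg : DifferentiableAt ℂ (fun z => g (e.symm z)) (e x)) (hg0 : g x ≠ 0)
    (hgs : ∀ᶠ y in 𝓝 x, s' y = g y • s y) : the s' x = the s x := by
  have h1 : loc1 0 e (the s') (e x) = loc1 0 e (the s) (e x) := by
    funext i
    rw [h.loc1_the he hx hU i, h'.loc1_the he hx hU' i,
      trans_D h (wd_dzb i) he hx hU (hg.restrictScalars ℝ) hg0 hgs, dzb_of_hol hg]
    simp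
  have h2 : ∀ i, ∑ p, conj (jac e x p i) * the s' x p = ∑ p, conj (jac e x p i) * the s x p := by
    intro i
    have := congrFun h1 i
    rw [loc1_source hx, loc1_source hx] at this
    simpa using this
  have hdet := jac_det_ne_zero he hx
  have h3 : ∀ v : Fin 2 → ℂ, (∀ i, ∑ p, conj (jac e x p i) * v p = 0) → v = 0 := by
    intro v hv
    have e0 := hv 0
    have e1 := hv 1
    rw [Fin.sum_univ_two] at e0 e1
    have hd : conj (jac e x 0 0) * conj (jac e x 1 1) - conj (jac e x 0 1) * conj (jac e x 1 0) ≠ 0 := by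
      rw [← map_mul, ← map_mul, ← map_sub, ← Matrix.det_fin_two]
      simpa using hdet
    have v0 : v 0 = 0 := by
      have : (conj (jac e x 0 0) * conj (jac e x 1 1) - conj (jac e x 0 1) * conj (jac e x 1 0)) *
        v 0 = 0 := by linear_combination conj (jac e x 1 1) * e0 - conj (jac e x 1 0) * e1
      exact (mul_eq_zero.1 this).resolve_left hd
    have v1 : v 1 = 0 := by
      have : (conj (jac e x 0 0) * conj (jac e x 1 1) - conj (jac e x 0 1) * conj (jac e x 1 0)) *
        v 1 = 0 := by linear_combination conj (jac e x 0 0) * e1 - conj (jac e x 0 1) * e0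
      exact (mul_eq_zero.1 this).resolve_left hd
    funext i
    fin_cases i
    · exact v0
    · exact v1
  have h4 := h3 (the s' x - the s x) fun i => by
    simp only [Pi.sub_apply, mul_sub, Finset.sum_sub_distrib]
    rw [h2 i, sub_self]
  exact sub_eq_zero.1 h4

/-! ### holomorphic frames of `(L, a)` -/

theorem dbar0_comp_coord {s : X → EuclideanSpace ℂ ι} {x : X}
    (hs : DifferentiableAt ℝ (loc0 0 (chartAt C2 x) s) (chartAt C2 x x)) (j : Fin 2) (k : ι) :
    dbar0 0 (fun y => s y k) x j = (dbar0 0 s x j) k := by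
  have h1 : loc0 0 (chartAt C2 x) (fun y => s y k) =
      fun z => EuclideanSpace.proj k (loc0 0 (chartAt C2 x) s z) := by
    rw [LB.loc0_zero, LB.loc0_zero]; rfl
  rw [dbar0, h1, dzb_clm (EuclideanSpace.proj k) hs j]
  rfl

/-- a `∂̄_a`-closed frame has `(0,1)`-connection form `-a` -/
theorem the_of_hol {L : LB X ι} {U : Set X} {s : X → EuclideanSpace ℂ ι} (h : Fr L U s)
    {a : X → Fin 2 → ℂ} {x : X} (hU : x ∈ U) (h0 : L.db0 a 0 s x = 0) (j : Fin 2) :
    the s x j = -a x j := by
  have hx := mem_chart_source C2 x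
  have he := chart_mem_atlas C2 x
  have hs : DifferentiableAt ℝ (loc0 0 (chartAt C2 x) s) (chartAt C2 x x) := by
    rw [LB.loc0_zero]
    have hp : DifferentiableAt ℝ (fun z => (fun k => s ((chartAt C2 x).symm z) k : ι → ℂ))
        (chartAt C2 x x) := differentiableAt_pi.2 fun k =>
      (h.smooth x hU k).differentiableAt (by simp)
    exact (PiLp.continuousLinearEquiv 2 ℝ (fun _ : ι => ℂ)).symm.differentiableAt.comp _ hp
  have h1 := congrFun h0 j
  rw [LB.db0, Pi.zero_apply] at h1
  have h2 : ∀ k, (∑ l, L.P x k l * dbar0 0 (fun y => s y l) x j) + a x j * s x k = 0 := by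
    intro k
    have h3 := congrArg (fun v : EuclideanSpace ℂ ι => v k) h1
    simp only [PiLp.add_apply, PiLp.smul_apply, PiLp.zero_apply, smul_eq_mul] at h3
    rw [← h3]
    congr 1
    simp only [LB.act, Matrix.mulVec, dotProduct]
    exact Finset.sum_congr rfl fun l _ => by rw [dbar0_comp_coord hs]
  have h4 : ∑ k, Ts s x k * ((∑ l, L.P x k l * dbar0 0 (fun y => s y l) x j) + a x j * s x k) =
      0 := Finset.sum_eq_zero fun k _ => by rw [h2, mul_zero]
  have h5 : ∀ k, Ts s x k * ((∑ l, L.P x k l * dbar0 0 (fun y => s y l) x j) + a x j * s x k) =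
      Ts s x k * s x k * (the s x j + a x j) := by
    intro k
    have : (∑ l, L.P x k l * dbar0 0 (fun y => s y l) x j) = s x k * the s x j := by
      rw [the, Finset.mul_sum]
      refine Finset.sum_congr rfl fun l _ => ?_
      rw [h.P_eq hU]
      ring
    rw [this]
    ring
  simp only [h5] at h4
  rw [← Finset.sum_mul, h.Ts_mul hU, one_mul] at h4
  linear_combination h4

/-- holomorphic frames are compatible -/
theorem CFr.of_hol {I : Type} [Fintype I] {L : LB X ι} {U : I → Set X}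
    {s : I → X → EuclideanSpace ℂ ι} (a : X → Fin 2 → ℂ) (h : ∀ b, Fr L (U b) (s b))
    (h0 : ∀ b, ∀ x ∈ U b, L.db0 a 0 (s b) x = 0) : CFr L U s where
  fr := h
  comp b c x hb hc := by
    funext j
    rw [the_of_hol (h b) hb (h0 b x hb), the_of_hol (h c) hc (h0 c x hc)]

/-! ### frames of a bundle smoothly isomorphic to the canonical bundle -/

/-- the frame attached to the chart `e` by a nowhere zero section of `K^{-1} ⊗ L` -/
def kfr (σ : X → EuclideanSpace ℂ ι) (e : Ch X) (x : X) : EuclideanSpace ℂ ι :=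
  (jac e x).det ^ (-1 : ℤ) • σ x

theorem kfr_fr {L : LB X ι} {σ : X → EuclideanSpace ℂ ι} (h1 : Reg0 ∞ (-1) σ) (h2 : L.Sec σ)
    (h3 : ∀ x, σ x ≠ 0) {e : Ch X} (he : e ∈ atlas C2 X) : Fr L e.source (kfr σ e) where
  isOpen := e.open_source
  smooth x hx k := by
    have h4 : (fun z => kfr σ e (e.symm z) k) = fun z => (loc0 (-1) e σ z) k := rfl
    have h5 : ContDiffAt ℝ ∞ (fun z => kfr σ e (e.symm z) k) (e x) := by
      rw [h4]
      exact (((EuclideanSpace.proj k : EuclideanSpace ℂ ι →L[ℂ] ℂ).restrictScalars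
        ℝ).contDiff.contDiffAt).comp _ (h1.contDiffAt he (e.map_source hx))
    exact contDiffAt_change (f := fun y => kfr σ e y k) (chart_mem_atlas C2 x) he
      (mem_chart_source C2 x) hx h5
  sec x _ := by
    have h4 : LB.act (L.P x) (σ x) = σ x := h2 x
    have h5 : ∀ (c : ℂ) (v : EuclideanSpace ℂ ι), LB.act (L.P x) (c • v) =
        c • LB.act (L.P x) v := by
      intro c v
      simp only [LB.act]
      ext i
      simp [Matrix.mulVec_smul]
    rw [kfr, h5, h4]
  ne x hx := smul_ne_zero (zpow_ne_zero _ (jac_det_ne_zero he hx)) (h3 x)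

theorem kfr_change (σ : X → EuclideanSpace ℂ ι) {e e' : Ch X} (he : e ∈ atlas C2 X)
    (he' : e' ∈ atlas C2 X) {x : X} (hx : x ∈ e.source) (hx' : x ∈ e'.source) :
    kfr σ e' x = (jacM e e' x).det • kfr σ e x := by
  have h1 := jac_det_ne_zero he' hx'
  have h2 := jacM_det_ne_zero he he' hx hx'
  rw [kfr, kfr, jac_eq he he' hx hx', Matrix.det_mul, smul_smul]
  congr 1
  rw [zpow_neg_one, zpow_neg_one]
  field_simp

theorem kfr_change_eventually (σ : X → EuclideanSpace ℂ ι) {e e' : Ch X} (he : e ∈ atlas C2 X)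
    (he' : e' ∈ atlas C2 X) {x : X} (hx : x ∈ e.source) (hx' : x ∈ e'.source) :
    ∀ᶠ y in 𝓝 x, kfr σ e' y = (jacM e e' y).det • kfr σ e y := by
  filter_upwards [e.open_source.mem_nhds hx, e'.open_source.mem_nhds hx'] with y hy hy'
  exact kfr_change σ he he' hy hy'

/-- the frames `kfr` are compatible -/
theorem CFr.kfr {I : Type} [Fintype I] {L : LB X ι} {σ : X → EuclideanSpace ℂ ι}
    (h1 : Reg0 ∞ (-1) σ) (h2 : L.Sec σ) (h3 : ∀ x, σ x ≠ 0) {e : I → Ch X}
    (he : ∀ a, e a ∈ atlas C2 X) {U : I → Set X} (hUo : ∀ a, IsOpen (U a))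
    (hU : ∀ a, U a ⊆ (e a).source) : CFr L U fun a => kfr σ (e a) where
  fr a := (kfr_fr h1 h2 h3 (he a)).mono (hUo a) (hU a)
  comp a b _ ha hb :=
    the_trans (kfr_fr h1 h2 h3 (he b)) (kfr_fr h1 h2 h3 (he a)) (hU b hb) (hU a ha) (he b) (hU b hb)
      (det_analyticAt (he b) (he a) (hU b hb) (hU a ha)).differentiableAt
      (jacM_det_ne_zero (he b) (he a) (hU b hb) (hU a ha))
      (kfr_change_eventually σ (he b) (he a) (hU b hb) (hU a ha))

/-- the cocycle of the frames `kfr`, in a chart -/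
theorem loc10_gam_kfr {L : LB X ι} {σ : X → EuclideanSpace ℂ ι}
    (h1 : Reg0 ∞ (-1) σ) (h2 : L.Sec σ) (h3 : ∀ x, σ x ≠ 0) {e e' : Ch X} (he : e ∈ atlas C2 X)
    (he' : e' ∈ atlas C2 X) {x : X} (hx : x ∈ e.source) (hx' : x ∈ e'.source) (i : Fin 2) :
    loc10 e (gam (kfr σ e')) (e x) i = loc10 e (gam (kfr σ e)) (e x) i +
      dz i (fun z => (jacM e e' (e.symm z)).det) (e x) / (jacM e e' x).det :=
  loc10_gam_trans (kfr_fr h1 h2 h3 he) (kfr_fr h1 h2 h3 he') he hx hx hx'
    ((det_analyticAt he he' hx hx').differentiableAt.restrictScalars ℝ)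
    (jacM_det_ne_zero he he' hx hx') (kfr_change_eventually σ he he' hx hx') i

end Vale.Agent.P267.H509
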